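import Mathlib

namespace Vale.Agent.Lib.Helper7.P064M

/-- The expected number of copies of `F` in the binomial random graph on `Fin n` with edge
density `p`: the number of subgraphs of the complete graph isomorphic to `F`, times
`p ^ e(F)`. -/
noncomputable def expCopies {n : ℕ} (F : SimpleGraph (Fin n)) (p : ℝ) : ℝ :=
  ((⊤ : SimpleGraph (Fin n)).copyCount F : ℝ) * p ^ F.edgeSet.ncard

/-- The expectation threshold of `H` (a graph on `Fin n`, isolated vertices allowed): the least
`p` in `[0, 1]` such that every `F ≤ H` has at least one half expected copies at density `p`. -/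
noncomputable def expThreshold {n : ℕ} (H : SimpleGraph (Fin n)) : ℝ :=
  sInf {p : ℝ | 0 ≤ p ∧ p ≤ 1 ∧ ∀ F : SimpleGraph (Fin n), F ≤ H → 1 / 2 ≤ expCopies F p}

/-- The fractional expectation threshold of `H`: the least `p` in `[0, 1]` such that every
`F ≤ H` has at least `N(H, F) / 2` expected copies at density `p`, where `N(H, F)` is the number
of subgraphs of `H` isomorphic to `F`. -/
noncomputable def fracExpThreshold {n : ℕ} (H : SimpleGraph (Fin n)) : ℝ :=
  sInf {p : ℝ | 0 ≤ p ∧ p ≤ 1 ∧
    ∀ F : SimpleGraph (Fin n), F ≤ H → (H.copyCount F : ℝ) / 2 ≤ expCopies F p}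

end Vale.Agent.Lib.Helper7.P064M
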