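import Vale.Agent.Lib.Helper7.P064T6
import Vale.Agent.Lib.Helper7.P064ThrDef
import Vale.Agent.Lib.P064T.ForestCount

namespace Vale.Agent.Lib.Helper7.P064M

open Finset
open Vale.Agent.Lib.P064T (IsStarForest)

/-- A graph has at most as many copies of `F` as the complete graph. -/
theorem copyCount_le_top {n : ℕ} (H F : SimpleGraph (Fin n)) :
    (H.copyCount F : ℝ) ≤ ((⊤ : SimpleGraph (Fin n)).copyCount F : ℝ) := by
  have h := copies_of_labelled H ⊤ F 1 (by
    rw [mul_one, labelled_top]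
    exact_mod_cast labelled_le_desc H F)
  rwa [mul_one] at h

theorem one_le_copyCount_of_le {n : ℕ} {H F : SimpleGraph (Fin n)} (h : F ≤ H) :
    (1 : ℝ) ≤ (H.copyCount F : ℝ) := by
  have hp : 0 < H.copyCount F := SimpleGraph.copyCount_pos.mpr ⟨SimpleGraph.Copy.ofLE F H h⟩
  exact_mod_cast hp

theorem one_mem_frac {n : ℕ} (H : SimpleGraph (Fin n)) :
    (1 : ℝ) ∈ {p : ℝ | 0 ≤ p ∧ p ≤ 1 ∧
      ∀ F : SimpleGraph (Fin n), F ≤ H → (H.copyCount F : ℝ) / 2 ≤ expCopies F p} := by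
  refine ⟨zero_le_one, le_rfl, fun F _ => ?_⟩
  unfold expCopies
  rw [one_pow, mul_one]
  have h1 := copyCount_le_top H F
  have h0 : (0 : ℝ) ≤ (H.copyCount F : ℝ) := Nat.cast_nonneg _
  linarith

theorem one_mem_exp {n : ℕ} (H : SimpleGraph (Fin n)) :
    (1 : ℝ) ∈ {p : ℝ | 0 ≤ p ∧ p ≤ 1 ∧
      ∀ F : SimpleGraph (Fin n), F ≤ H → 1 / 2 ≤ expCopies F p} := by
  refine ⟨zero_le_one, le_rfl, fun F _ => ?_⟩
  unfold expCopies
  rw [one_pow, mul_one]
  have h1 := one_le_copyCount_of_le (le_top : F ≤ (⊤ : SimpleGraph (Fin n)))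
  linarith

theorem bddBelow_exp {n : ℕ} (H : SimpleGraph (Fin n)) :
    BddBelow {p : ℝ | 0 ≤ p ∧ p ≤ 1 ∧
      ∀ F : SimpleGraph (Fin n), F ≤ H → 1 / 2 ≤ expCopies F p} :=
  ⟨0, fun _ hp => hp.1⟩

theorem bddBelow_frac {n : ℕ} (H : SimpleGraph (Fin n)) :
    BddBelow {p : ℝ | 0 ≤ p ∧ p ≤ 1 ∧
      ∀ F : SimpleGraph (Fin n), F ≤ H → (H.copyCount F : ℝ) / 2 ≤ expCopies F p} :=
  ⟨0, fun _ hp => hp.1⟩

/-- The expectation threshold is at most the fractional expectation threshold. -/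
theorem expThreshold_le_frac {n : ℕ} (H : SimpleGraph (Fin n)) :
    expThreshold H ≤ fracExpThreshold H := by
  unfold expThreshold fracExpThreshold
  refine csInf_le_csInf (bddBelow_exp H) ⟨1, one_mem_frac H⟩ ?_
  intro p hp
  refine ⟨hp.1, hp.2.1, fun F hF => ?_⟩
  have h1 := hp.2.2 F hF
  have h2 := one_le_copyCount_of_le hF
  linarith

/-- For star forests the fractional expectation threshold is at most `2000` times the
expectation threshold. -/
theorem frac_le_expThreshold {n : ℕ} (H : SimpleGraph (Fin n)) (hH : IsStarForest H) :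
    fracExpThreshold H ≤ 2000 * expThreshold H := by
  have key : ∀ q ∈ {p : ℝ | 0 ≤ p ∧ p ≤ 1 ∧
      ∀ F : SimpleGraph (Fin n), F ≤ H → 1 / 2 ≤ expCopies F p},
      fracExpThreshold H / 2000 ≤ q := by
    intro q hq
    obtain ⟨hq0, -, hq2⟩ := hq
    have hmem : min 1 (2000 * q) ∈ {p : ℝ | 0 ≤ p ∧ p ≤ 1 ∧
        ∀ F : SimpleGraph (Fin n), F ≤ H → (H.copyCount F : ℝ) / 2 ≤ expCopies F p} := by
      refine ⟨le_min zero_le_one (by positivity), min_le_left _ _, fun F hF => ?_⟩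
      have h1 := forest_host_of H
        (fun F' hF' => Vale.Agent.Lib.P064T.forest_count F' H (hH.mono hF')) q hq0 hq2 F hF
      have h0 : (0 : ℝ) ≤ (H.copyCount F : ℝ) := Nat.cast_nonneg _
      unfold expCopies
      linarith
    have h3 : fracExpThreshold H ≤ min 1 (2000 * q) := csInf_le (bddBelow_frac H) hmem
    have h4 : min 1 (2000 * q) ≤ 2000 * q := min_le_right _ _
    linarith
  have h5 : fracExpThreshold H / 2000 ≤ expThreshold H :=
    le_csInf ⟨1, one_mem_exp H⟩ key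
  linarith

end Vale.Agent.Lib.Helper7.P064M
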