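import Vale.Agent.Lib.Helper7.P064Def

namespace Vale.Agent.Lib.Helper7.P064M

open Finset

theorem labelled_eq_natCard {V W : Type*} [Fintype V] [Fintype W] (G : SimpleGraph V)
    (F : SimpleGraph W) : G.labelledCopyCount F = Nat.card (SimpleGraph.Copy F G) := by
  unfold SimpleGraph.labelledCopyCount
  exact Fintype.card_eq_nat_card

theorem natCard_emb {V W : Type*} [Fintype V] [Fintype W] :
    Nat.card (W ↪ V) = (Fintype.card V).descFactorial (Fintype.card W) := by
  classical
  rw [Nat.card_eq_fintype_card, Fintype.card_embedding_eq]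

theorem labelled_le_desc {V W : Type*} [Fintype V] [Fintype W] (G : SimpleGraph V)
    (F : SimpleGraph W) :
    G.labelledCopyCount F ≤ (Fintype.card V).descFactorial (Fintype.card W) := by
  classical
  rw [labelled_eq_natCard, ← natCard_emb]
  refine Nat.card_le_card_of_injective (fun f : SimpleGraph.Copy F G => f.toEmbedding) ?_
  intro f g h
  ext a
  exact congrArg (fun e : W ↪ V => e a) h

theorem labelled_top {V W : Type*} [Fintype V] [Fintype W] (F : SimpleGraph W) :
    (⊤ : SimpleGraph V).labelledCopyCount F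
      = (Fintype.card V).descFactorial (Fintype.card W) := by
  classical
  rw [labelled_eq_natCard, ← natCard_emb]
  refine Nat.card_congr
    ⟨fun f => f.toEmbedding,
     fun e => ⟨⟨e, fun {a b} h => ?_⟩, e.injective⟩, ?_, ?_⟩
  · rw [SimpleGraph.top_adj]
    exact fun hab => F.ne_of_adj h (e.injective hab)
  · intro f
    ext a
    rfl
  · intro e
    ext a
    rfl

theorem natCard_dart {V : Type*} [Fintype V] [DecidableEq V] (H : SimpleGraph V)
    [DecidableRel H.Adj] : Nat.card H.Dart = 2 * H.edgeFinset.card := by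
  rw [Nat.card_eq_fintype_card]
  exact H.dart_card_eq_twice_card_edges

theorem labelled_matching_le {V : Type*} [Fintype V] [DecidableEq V] (H : SimpleGraph V)
    [DecidableRel H.Adj] (k : ℕ) :
    H.labelledCopyCount (matchingGraph k) ≤ (2 * H.edgeFinset.card) ^ k := by
  classical
  rw [labelled_eq_natCard, ← natCard_dart]
  have hc : Nat.card (Fin k → H.Dart) = (Nat.card H.Dart) ^ k := by
    rw [Nat.card_fun]
    simp
  rw [← hc]
  refine Nat.card_le_card_of_injective
    (fun (f : SimpleGraph.Copy (matchingGraph k) H) (i : Fin k) =>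
      (⟨(f (i, false), f (i, true)), f.toHom.map_adj ⟨rfl, by simp⟩⟩ : H.Dart)) ?_
  intro f g h
  ext ⟨i, b⟩
  have h1 := congrFun h i
  cases b
  · exact congrArg (fun d : H.Dart => d.fst) h1
  · exact congrArg (fun d : H.Dart => d.snd) h1


theorem pow_mul_factorial_le (n j : ℕ) (hj : j ≤ n) :
    n ^ j * j.factorial ≤ n.descFactorial j * j ^ j := by
  have h1 : j.factorial = ∏ i ∈ Finset.range j, (j - i) := by
    rw [← Nat.descFactorial_self, Nat.descFactorial_eq_prod_range]
  have h2 : n ^ j = ∏ _i ∈ Finset.range j, n := by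
    rw [Finset.prod_const, Finset.card_range]
  have h3 : j ^ j = ∏ _i ∈ Finset.range j, j := by
    rw [Finset.prod_const, Finset.card_range]
  rw [h1, Nat.descFactorial_eq_prod_range, h2]
  conv_rhs => rw [h3]
  rw [← Finset.prod_mul_distrib, ← Finset.prod_mul_distrib]
  refine Finset.prod_le_prod (fun i _ => Nat.zero_le _) (fun i hi => ?_)
  have hi' : i < j := Finset.mem_range.mp hi
  obtain ⟨a, rfl⟩ := Nat.exists_eq_add_of_lt hi'
  obtain ⟨b, rfl⟩ := Nat.exists_eq_add_of_le hj
  have e1 : i + a + 1 - i = a + 1 := by omega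
  have e2 : i + a + 1 + b - i = a + 1 + b := by omega
  rw [e1, e2]
  nlinarith [Nat.zero_le (b * i)]

theorem pow_le_exp_desc (n j : ℕ) (hj : j ≤ n) :
    (n : ℝ) ^ j ≤ Real.exp 1 ^ j * (n.descFactorial j : ℝ) := by
  have h1 : ((n ^ j * j.factorial : ℕ) : ℝ) ≤ ((n.descFactorial j * j ^ j : ℕ) : ℝ) := by
    exact_mod_cast pow_mul_factorial_le n j hj
  push_cast at h1
  have h2 : (j : ℝ) ^ j / j.factorial ≤ Real.exp j :=
    Real.pow_div_factorial_le_exp (j : ℝ) (Nat.cast_nonneg j) j
  have hf : (0 : ℝ) < j.factorial := by exact_mod_cast j.factorial_pos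
  rw [div_le_iff₀ hf] at h2
  have h3 : Real.exp (j : ℝ) = Real.exp 1 ^ j := by
    rw [← Real.exp_nat_mul, mul_one]
  rw [h3] at h2
  have hd : (0 : ℝ) ≤ n.descFactorial j := Nat.cast_nonneg _
  have h4 : (n : ℝ) ^ j * j.factorial
      ≤ (Real.exp 1 ^ j * n.descFactorial j) * j.factorial := by
    calc (n : ℝ) ^ j * j.factorial ≤ n.descFactorial j * (j : ℝ) ^ j := h1
      _ ≤ n.descFactorial j * (Real.exp 1 ^ j * j.factorial) := by gcongr
      _ = _ := by ring
  exact le_of_mul_le_mul_right h4 hf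

theorem edge_bound (n m N : ℕ) (q : ℝ) (hq : 0 ≤ q) (hN : N ≤ (n.choose 2).choose m)
    (h : 1 ≤ (N : ℝ) * q ^ m) : 2 * (m : ℝ) ≤ Real.exp 1 * (n : ℝ) ^ 2 * q := by
  rcases Nat.eq_zero_or_pos m with rfl | hm
  · simp only [Nat.cast_zero, mul_zero]
    positivity
  have hB2 : 2 * ((n.choose 2 : ℕ) : ℝ) ≤ (n : ℝ) ^ 2 := by
    have : 2 * n.choose 2 ≤ n ^ 2 := by
      rw [Nat.choose_two_right]
      calc 2 * (n * (n - 1) / 2) ≤ n * (n - 1) := Nat.mul_div_le _ _
        _ ≤ n * n := Nat.mul_le_mul_left _ (Nat.sub_le _ _)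
        _ = n ^ 2 := by ring
    exact_mod_cast this
  set B : ℝ := ((n.choose 2 : ℕ) : ℝ) with hB
  have hB0 : 0 ≤ B := Nat.cast_nonneg _
  have hf : (0 : ℝ) < m.factorial := by exact_mod_cast m.factorial_pos
  have hqm : 0 ≤ q ^ m := pow_nonneg hq m
  have h1 : (N : ℝ) ≤ B ^ m / m.factorial :=
    le_trans (by exact_mod_cast hN) (Nat.choose_le_pow_div m (n.choose 2))
  have h2 : (m : ℝ) ^ m ≤ Real.exp 1 ^ m * m.factorial := by
    have h2' := Real.pow_div_factorial_le_exp (m : ℝ) (Nat.cast_nonneg m) m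
    rw [div_le_iff₀ hf] at h2'
    have h3 : Real.exp (m : ℝ) = Real.exp 1 ^ m := by
      rw [← Real.exp_nat_mul, mul_one]
    rwa [h3] at h2'
  have h3 : (m.factorial : ℝ) ≤ (B * q) ^ m := by
    have h3' : 1 ≤ B ^ m / m.factorial * q ^ m :=
      le_trans h (mul_le_mul_of_nonneg_right h1 hqm)
    rw [div_mul_eq_mul_div, le_div_iff₀ hf] at h3'
    rw [mul_pow]
    linarith
  have h4 : (m : ℝ) ^ m ≤ (Real.exp 1 * (B * q)) ^ m := by
    rw [mul_pow]
    exact le_trans h2 (mul_le_mul_of_nonneg_left h3 (by positivity))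
  have h5 : (m : ℝ) ≤ Real.exp 1 * (B * q) :=
    (pow_le_pow_iff_left₀ (Nat.cast_nonneg m) (by positivity) hm.ne').mp h4
  have h6 : Real.exp 1 * q * (2 * B) ≤ Real.exp 1 * q * (n : ℝ) ^ 2 :=
    mul_le_mul_of_nonneg_left hB2 (mul_nonneg (Real.exp_pos 1).le hq)
  linarith

theorem final_ineq (n k m : ℕ) (q : ℝ) (hq : 0 ≤ q) (hk : 2 * k ≤ n)
    (h : 2 * (m : ℝ) ≤ Real.exp 1 * (n : ℝ) ^ 2 * q) :
    ((2 * m : ℕ) : ℝ) ^ k ≤ (n.descFactorial (2 * k) : ℝ) * (21 * q) ^ k := by
  have h1 := pow_le_exp_desc n (2 * k) hk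
  have he0 := Real.exp_pos 1
  have he : Real.exp 1 ^ 3 ≤ 21 := by
    calc Real.exp 1 ^ 3 ≤ (2.7182818286 : ℝ) ^ 3 :=
          pow_le_pow_left₀ he0.le Real.exp_one_lt_d9.le 3
      _ ≤ 21 := by norm_num
  have hd : (0 : ℝ) ≤ n.descFactorial (2 * k) := Nat.cast_nonneg _
  calc ((2 * m : ℕ) : ℝ) ^ k = (2 * (m : ℝ)) ^ k := by push_cast; ring
    _ ≤ (Real.exp 1 * (n : ℝ) ^ 2 * q) ^ k :=
        pow_le_pow_left₀ (by positivity) h k
    _ = (Real.exp 1 * q) ^ k * (n : ℝ) ^ (2 * k) := by rw [pow_mul]; ring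
    _ ≤ (Real.exp 1 * q) ^ k * (Real.exp 1 ^ (2 * k) * (n.descFactorial (2 * k) : ℝ)) :=
        mul_le_mul_of_nonneg_left h1 (by positivity)
    _ = (n.descFactorial (2 * k) : ℝ) * (Real.exp 1 ^ 3 * q) ^ k := by rw [pow_mul]; ring
    _ ≤ (n.descFactorial (2 * k) : ℝ) * (21 * q) ^ k :=
        mul_le_mul_of_nonneg_left
          (pow_le_pow_left₀ (by positivity) (mul_le_mul_of_nonneg_right he hq) k) hd


/-- Labelled form, with the edge-set bound on the number of copies of `H` in the complete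
graph as an explicit hypothesis `hN`. -/
theorem matching_labelled_of (n k : ℕ) (H : SimpleGraph (Fin n)) [DecidableRel H.Adj]
    (q : ℝ) (hq0 : 0 ≤ q)
    (hN : (⊤ : SimpleGraph (Fin n)).copyCount H ≤ (n.choose 2).choose H.edgeFinset.card)
    (h : 1 ≤ ((⊤ : SimpleGraph (Fin n)).copyCount H : ℝ) * q ^ H.edgeFinset.card) :
    (H.labelledCopyCount (matchingGraph k) : ℝ) ≤
      ((⊤ : SimpleGraph (Fin n)).labelledCopyCount (matchingGraph k) : ℝ)
        * (min 1 (21 * q)) ^ k := by
  have hc : Fintype.card (Fin k × Bool) = 2 * k := by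
    simp [mul_comm]
  have hle := labelled_le_desc H (matchingGraph k)
  rw [labelled_top, hc, Fintype.card_fin]
  rw [hc, Fintype.card_fin] at hle
  have hle' : (H.labelledCopyCount (matchingGraph k) : ℝ) ≤ (n.descFactorial (2 * k) : ℝ) := by
    exact_mod_cast hle
  by_cases h21 : 1 ≤ 21 * q
  · rw [min_eq_left h21, one_pow, mul_one]
    exact hle'
  · rw [min_eq_right (le_of_not_ge h21)]
    by_cases hk : 2 * k ≤ n
    · have h2 : (H.labelledCopyCount (matchingGraph k) : ℝ)
          ≤ ((2 * H.edgeFinset.card : ℕ) : ℝ) ^ k := by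
        exact_mod_cast labelled_matching_le H k
      exact le_trans h2 (final_ineq n k _ q hq0 hk (edge_bound n _ _ q hq0 hN h))
    · have h0 : n.descFactorial (2 * k) = 0 :=
        Nat.descFactorial_eq_zero_iff_lt.mpr (not_le.mp hk)
      rw [h0] at hle' ⊢
      simpa using hle'


theorem copyCount_top_le (n : ℕ) (H : SimpleGraph (Fin n)) [DecidableRel H.Adj] :
    (⊤ : SimpleGraph (Fin n)).copyCount H ≤ (n.choose 2).choose H.edgeFinset.card := by
  classical
  unfold SimpleGraph.copyCount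
  have hc : (n.choose 2).choose H.edgeFinset.card
      = (Finset.powersetCard H.edgeFinset.card (⊤ : SimpleGraph (Fin n)).edgeFinset).card := by
    rw [Finset.card_powersetCard, SimpleGraph.card_edgeFinset_top_eq_card_choose_two,
      Fintype.card_fin]
  rw [hc]
  refine Finset.card_le_card_of_injOn (fun G' => G'.spanningCoe.edgeFinset) ?_ ?_
  · intro G' hG'
    simp only [Finset.coe_filter, Finset.mem_univ, true_and, Set.mem_ofPred_eq] at hG'
    obtain ⟨e⟩ := hG'
    have hv : G'.IsSpanning := by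
      intro v
      have hinj : Function.Injective (fun x : Fin n => ((e x : G'.verts) : Fin n)) :=
        fun x y hxy => e.injective (Subtype.ext hxy)
      obtain ⟨x, hx⟩ := (Finite.injective_iff_surjective.mp hinj) v
      rw [← hx]
      exact (e x).2
    rw [Finset.mem_coe, Finset.mem_powersetCard]
    refine ⟨?_, ?_⟩
    · exact SimpleGraph.edgeFinset_subset_edgeFinset.mpr le_top
    · have iso : H ≃g G'.spanningCoe :=
        (G'.spanningCoeEquivCoeOfSpanning hv).symm.comp e
      exact (iso.card_edgeFinset_eq).symm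
  · intro G1 h1 G2 h2 heq
    simp only [Finset.coe_filter, Finset.mem_univ, true_and, Set.mem_ofPred_eq] at h1 h2
    obtain ⟨e1⟩ := h1
    obtain ⟨e2⟩ := h2
    have hv : ∀ (G' : (⊤ : SimpleGraph (Fin n)).Subgraph) (e : H ≃g G'.coe),
        G'.verts = Set.univ := by
      intro G' e
      rw [Set.eq_univ_iff_forall]
      intro v
      have hinj : Function.Injective (fun x : Fin n => ((e x : G'.verts) : Fin n)) :=
        fun x y hxy => e.injective (Subtype.ext hxy)
      obtain ⟨x, hx⟩ := (Finite.injective_iff_surjective.mp hinj) v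
      rw [← hx]
      exact (e x).2
    have hs : G1.spanningCoe = G2.spanningCoe := SimpleGraph.edgeFinset_inj.mp heq
    exact SimpleGraph.Subgraph.ext ((hv G1 e1).trans (hv G2 e2).symm)
      (SimpleGraph.Subgraph.spanningCoe_inj.mp hs)


theorem toSubgraph_adj_iff {V W : Type*} {G : SimpleGraph V} {F : SimpleGraph W}
    (f : SimpleGraph.Copy F G) (a b : W) :
    f.toSubgraph.Adj (f a) (f b) ↔ F.Adj a b := by
  constructor
  · rintro ⟨a', b', h, ha, hb⟩
    have ha' : a' = a := f.injective ha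
    have hb' : b' = b := f.injective hb
    subst ha' hb'
    exact h
  · intro h
    exact ⟨a, b, h, rfl, rfl⟩

theorem mem_toSubgraph_verts {V W : Type*} {G : SimpleGraph V} {F : SimpleGraph W}
    (f : SimpleGraph.Copy F G) (x : V) :
    x ∈ f.toSubgraph.verts ↔ ∃ a, f a = x := by
  simp [SimpleGraph.Copy.toSubgraph]

theorem fiber_card {V W : Type*} [Fintype V] [Fintype W] (G : SimpleGraph V)
    (F : SimpleGraph W) (f : SimpleGraph.Copy F G) :
    Nat.card {g : SimpleGraph.Copy F G // g.toSubgraph = f.toSubgraph}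
      = Nat.card (F ≃g F) := by
  classical
  symm
  have key : ∀ φ : F ≃g F, (f.comp φ.toCopy).toSubgraph = f.toSubgraph := by
    intro φ
    refine SimpleGraph.Subgraph.ext ?_ ?_
    · ext x
      rw [mem_toSubgraph_verts, mem_toSubgraph_verts]
      constructor
      · rintro ⟨a, rfl⟩
        exact ⟨φ a, rfl⟩
      · rintro ⟨a, rfl⟩
        exact ⟨φ.symm a, by simp⟩
    · ext x y
      constructor
      · rintro ⟨a, b, h, rfl, rfl⟩
        exact ⟨φ a, φ b, φ.map_rel_iff.mpr h, rfl, rfl⟩
      · rintro ⟨a, b, h, rfl, rfl⟩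
        exact ⟨φ.symm a, φ.symm b, φ.symm.map_rel_iff.mpr h, by simp, by simp⟩
  refine Nat.card_eq_of_bijective
    (fun φ : F ≃g F =>
      (⟨f.comp φ.toCopy, key φ⟩ :
        {g : SimpleGraph.Copy F G // g.toSubgraph = f.toSubgraph})) ⟨?_, ?_⟩
  · intro φ ψ h
    have h' : f.comp φ.toCopy = f.comp ψ.toCopy := congrArg Subtype.val h
    ext w
    have h2 := congrArg (fun c : SimpleGraph.Copy F G => c w) h'
    simp only [SimpleGraph.Copy.comp_apply] at h2
    exact f.injective h2
  · rintro ⟨g, hg⟩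
    have hex : ∀ w : W, ∃ a : W, f a = g w := by
      intro w
      have hw : g w ∈ g.toSubgraph.verts := (mem_toSubgraph_verts g _).mpr ⟨w, rfl⟩
      rw [hg] at hw
      exact (mem_toSubgraph_verts f _).mp hw
    choose φ hφ using hex
    have hinj : Function.Injective φ := by
      intro a b hab
      apply g.injective
      show g a = g b
      rw [← hφ a, ← hφ b, hab]
    have hbij : Function.Bijective φ := ⟨hinj, Finite.injective_iff_surjective.mp hinj⟩
    have hadj : ∀ a b, F.Adj (φ a) (φ b) ↔ F.Adj a b := by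
      intro a b
      rw [← toSubgraph_adj_iff f, hφ a, hφ b, ← hg, toSubgraph_adj_iff g]
    refine ⟨⟨Equiv.ofBijective φ hbij, fun {a b} => hadj a b⟩, ?_⟩
    apply Subtype.ext
    ext w
    simp [hφ w]


theorem labelled_eq_of_fiber {V W : Type*} [Fintype V] [Fintype W] (G : SimpleGraph V)
    (F : SimpleGraph W) (A : ℕ)
    (hfib : ∀ f : SimpleGraph.Copy F G,
      Nat.card {g : SimpleGraph.Copy F G // g.toSubgraph = f.toSubgraph} = A) :
    G.labelledCopyCount F = G.copyCount F * A := by
  classical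
  have e1 : G.labelledCopyCount F = Fintype.card (SimpleGraph.Copy F G) := by
    unfold SimpleGraph.labelledCopyCount
    exact Fintype.card_eq_nat_card.trans Nat.card_eq_fintype_card
  rw [e1, SimpleGraph.copyCount_eq_card_image_copyToSubgraph, ← Finset.card_univ,
    Finset.card_eq_sum_card_image (f := SimpleGraph.Copy.toSubgraph) Finset.univ]
  refine Finset.sum_const_nat (fun S hS => ?_)
  obtain ⟨f, -, rfl⟩ := Finset.mem_image.mp hS
  rw [← hfib f, Nat.card_eq_fintype_card, Fintype.card_subtype]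


/-- Number of labelled copies equals number of copies times the number of automorphisms. -/
theorem labelled_eq_copyCount_mul_aut {V W : Type*} [Fintype V] [Fintype W]
    (G : SimpleGraph V) (F : SimpleGraph W) :
    G.labelledCopyCount F = G.copyCount F * Nat.card (F ≃g F) :=
  labelled_eq_of_fiber G F _ (fiber_card G F)

/-- Labelled form of the counting inequality for matchings. -/
theorem matching_labelled (n k : ℕ) (H : SimpleGraph (Fin n)) [DecidableRel H.Adj]
    (q : ℝ) (hq0 : 0 ≤ q)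
    (h : 1 ≤ ((⊤ : SimpleGraph (Fin n)).copyCount H : ℝ) * q ^ H.edgeFinset.card) :
    (H.labelledCopyCount (matchingGraph k) : ℝ) ≤
      ((⊤ : SimpleGraph (Fin n)).labelledCopyCount (matchingGraph k) : ℝ)
        * (min 1 (21 * q)) ^ k :=
  matching_labelled_of n k H q hq0 (copyCount_top_le n H) h

/-- The counting inequality for matchings, for ordinary copies. -/
theorem matching_copies (n k : ℕ) (H : SimpleGraph (Fin n)) [DecidableRel H.Adj]
    (q : ℝ) (hq0 : 0 ≤ q)
    (h : 1 ≤ ((⊤ : SimpleGraph (Fin n)).copyCount H : ℝ) * q ^ H.edgeFinset.card) :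
    (H.copyCount (matchingGraph k) : ℝ) ≤
      ((⊤ : SimpleGraph (Fin n)).copyCount (matchingGraph k) : ℝ)
        * (min 1 (21 * q)) ^ k := by
  have hl := matching_labelled n k H q hq0 h
  rw [labelled_eq_copyCount_mul_aut, labelled_eq_copyCount_mul_aut] at hl
  push_cast at hl
  have hA : (0 : ℝ) < (Nat.card (matchingGraph k ≃g matchingGraph k) : ℝ) := by
    have hfin : Finite (matchingGraph k ≃g matchingGraph k) :=
      Finite.of_injective
        (fun φ : matchingGraph k ≃g matchingGraph k => (⇑φ : Fin k × Bool → Fin k × Bool))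
        DFunLike.coe_injective
    have : 0 < Nat.card (matchingGraph k ≃g matchingGraph k) :=
      Nat.card_pos_iff.mpr ⟨⟨SimpleGraph.Iso.refl⟩, hfin⟩
    exact_mod_cast this
  have hl' : (H.copyCount (matchingGraph k) : ℝ)
        * (Nat.card (matchingGraph k ≃g matchingGraph k) : ℝ)
      ≤ (((⊤ : SimpleGraph (Fin n)).copyCount (matchingGraph k) : ℝ)
        * (min 1 (21 * q)) ^ k) * (Nat.card (matchingGraph k ≃g matchingGraph k) : ℝ) := by
    calc _ ≤ _ := hl
      _ = _ := by ring
  exact le_of_mul_le_mul_right hl' hA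

end Vale.Agent.Lib.Helper7.P064M
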