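import Mathlib

/-!
# An abstract covering lemma with product costs

Auxiliary results for P034 (laminar supports): a bound for elementary symmetric sums and a
dyadic-level covering lemma in the spirit of the singleton case of the
fractional expectation threshold comparison.
-/

namespace Vale.Agent.Lib.Helper7.LaminarCover

open Finset

/-- A two-term binomial lower bound. -/
theorem add_pow_ge (S y : ℝ) (hS : 0 ≤ S) (hy : 0 ≤ y) (m : ℕ) :
    S ^ (m + 1) + (m + 1) * y * S ^ m ≤ (y + S) ^ (m + 1) := by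
  induction m with
  | zero => simp; linarith
  | succ k ih =>
    have h1 : (y + S) ^ (k + 1 + 1) = (y + S) ^ (k + 1) * (y + S) := pow_succ _ _
    have h2 : (S ^ (k + 1) + (k + 1) * y * S ^ k) * (y + S) ≤ (y + S) ^ (k + 1) * (y + S) :=
      mul_le_mul_of_nonneg_right ih (by linarith)
    have h3 : (0 : ℝ) ≤ (k + 1) * y * y * S ^ k := by positivity
    rw [h1]
    refine le_trans ?_ h2
    push_cast
    have h4 : S ^ (k + 1 + 1) = S ^ k * S * S := by ring
    have h5 : S ^ (k + 1) = S ^ k * S := by ring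
    rw [h4, h5]
    nlinarith [h3]

/-- Elementary symmetric sums are bounded by powers of the first one:
`m! * e_m(y) ≤ (∑ y) ^ m` for nonnegative `y`. -/
theorem factorial_mul_sum_powersetCard_le {ι : Type*} [DecidableEq ι] (y : ι → ℝ)
    (hy : ∀ i, 0 ≤ y i) (s : Finset ι) :
    ∀ m : ℕ, (m.factorial : ℝ) * ∑ J ∈ s.powersetCard m, ∏ i ∈ J, y i ≤ (∑ i ∈ s, y i) ^ m := by
  induction s using Finset.induction_on with
  | empty =>
    intro m
    cases m with
    | zero => simp
    | succ k =>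
      rw [Finset.powersetCard_eq_empty.mpr (by simp)]
      simp
  | insert a s ha ih =>
    intro m
    cases m with
    | zero => simp
    | succ k =>
      rw [Finset.powersetCard_succ_insert ha, Finset.sum_union, Finset.sum_image,
        Finset.sum_insert ha]
      · have e1 : ∑ J ∈ s.powersetCard k, ∏ i ∈ insert a J, y i
            = y a * ∑ J ∈ s.powersetCard k, ∏ i ∈ J, y i := by
          rw [Finset.mul_sum]
          apply Finset.sum_congr rfl
          intro J hJ
          rw [Finset.prod_insert]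
          intro haJ
          exact ha ((Finset.mem_powersetCard.mp hJ).1 haJ)
        rw [e1]
        have i1 := ih (k + 1)
        have i2 := ih k
        have hS : 0 ≤ ∑ i ∈ s, y i := Finset.sum_nonneg (fun i _ => hy i)
        have i3 := add_pow_ge (∑ i ∈ s, y i) (y a) hS (hy a) k
        have e2 : ((k + 1).factorial : ℝ) = (k + 1) * (k.factorial : ℝ) := by
          rw [Nat.factorial_succ]; push_cast; ring
        have i4 : (k + 1 : ℝ) * y a * ((k.factorial : ℝ) * ∑ J ∈ s.powersetCard k, ∏ i ∈ J, y i)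
            ≤ (k + 1 : ℝ) * y a * (∑ i ∈ s, y i) ^ k :=
          mul_le_mul_of_nonneg_left i2 (by have := hy a; positivity)
        rw [e2] at i1 ⊢
        calc (k + 1 : ℝ) * (k.factorial : ℝ) * (∑ J ∈ s.powersetCard (k + 1), ∏ i ∈ J, y i
              + y a * ∑ J ∈ s.powersetCard k, ∏ i ∈ J, y i)
            = (k + 1 : ℝ) * (k.factorial : ℝ) * (∑ J ∈ s.powersetCard (k + 1), ∏ i ∈ J, y i)
              + (k + 1 : ℝ) * y a
                * ((k.factorial : ℝ) * ∑ J ∈ s.powersetCard k, ∏ i ∈ J, y i) := by ring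
          _ ≤ (∑ i ∈ s, y i) ^ (k + 1) + (k + 1 : ℝ) * y a * (∑ i ∈ s, y i) ^ k :=
            add_le_add i1 i4
          _ ≤ (y a + ∑ i ∈ s, y i) ^ (k + 1) := i3
      · intro J hJ J' hJ' hEq
        have h1 : a ∉ J := fun h => ha ((Finset.mem_powersetCard.mp hJ).1 h)
        have h2 : a ∉ J' := fun h => ha ((Finset.mem_powersetCard.mp hJ').1 h)
        have : (insert a J).erase a = (insert a J').erase a := by rw [hEq]
        rwa [Finset.erase_insert h1, Finset.erase_insert h2] at this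
      · rw [Finset.disjoint_left]
        intro J hJ hJ'
        obtain ⟨J0, _, rfl⟩ := Finset.mem_image.mp hJ'
        exact ha ((Finset.mem_powersetCard.mp hJ).1 (Finset.mem_insert_self a J0))

/-- A sum over a union of finite sets is at most the sum of the sums (nonnegative terms). -/
theorem sum_biUnion_le_sum {α β : Type*} [DecidableEq α] [DecidableEq β] (s : Finset α)
    (t : α → Finset β) (f : β → ℝ) (hf : ∀ b, 0 ≤ f b) :
    ∑ b ∈ s.biUnion t, f b ≤ ∑ a ∈ s, ∑ b ∈ t a, f b := by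
  induction s using Finset.induction_on with
  | empty => simp
  | insert a s ha ih =>
    rw [Finset.biUnion_insert, Finset.sum_insert ha]
    have h1 := Finset.sum_union_inter (s₁ := t a) (s₂ := s.biUnion t) (f := f)
    have h2 : 0 ≤ ∑ b ∈ t a ∩ s.biUnion t, f b := Finset.sum_nonneg (fun b _ => hf b)
    linarith

open Classical in
/-- The level of a real number: the least `n` with `8 ^ (-(n+1)) < x` (and `0` if none). -/
noncomputable def lev (x : ℝ) : ℕ :=
  if h : ∃ n : ℕ, (1 / 8 : ℝ) ^ (n + 1) < x then Nat.find h else 0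

theorem lev_spec {x : ℝ} (hx0 : 0 < x) (hx1 : x ≤ 1) :
    (1 / 8 : ℝ) ^ (lev x + 1) < x ∧ x ≤ (1 / 8 : ℝ) ^ (lev x) := by
  classical
  have h : ∃ n : ℕ, (1 / 8 : ℝ) ^ (n + 1) < x := by
    obtain ⟨n, hn⟩ := exists_pow_lt_of_lt_one hx0 (by norm_num : (1 / 8 : ℝ) < 1)
    refine ⟨n, lt_of_le_of_lt ?_ hn⟩
    rw [pow_succ]
    have : (0 : ℝ) ≤ (1 / 8 : ℝ) ^ n := by positivity
    linarith
  unfold lev
  rw [dif_pos h]
  refine ⟨Nat.find_spec h, ?_⟩
  by_cases h0 : Nat.find h = 0
  · rw [h0]; simpa using hx1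
  · obtain ⟨k, hk⟩ := Nat.exists_eq_succ_of_ne_zero h0
    have hmin := Nat.find_min h (m := k) (by omega)
    rw [hk]
    exact not_lt.mp hmin

theorem sum_mul_pow_le (L : ℕ) :
    ∑ n ∈ Finset.range L, (n : ℝ) * (1 / 8 : ℝ) ^ n
      ≤ 2 / 7 - (2 * L + 2 / 7) * (1 / 8 : ℝ) ^ L := by
  induction L with
  | zero => simp
  | succ k ih =>
    rw [Finset.sum_range_succ, pow_succ]
    have h1 : (0 : ℝ) ≤ (1 / 8 : ℝ) ^ k := by positivity
    have h2 : (0 : ℝ) ≤ k * (1 / 8 : ℝ) ^ k := by positivity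
    push_cast
    nlinarith

theorem sum_pow_succ_le (ε : ℝ) (h0 : 0 ≤ ε) (h1 : ε ≤ 1 / 4) (L : ℕ) :
    ∑ n ∈ Finset.range L, ε ^ (n + 1) ≤ (1 - ε ^ L) / 3 := by
  induction L with
  | zero => simp
  | succ k ih =>
    rw [Finset.sum_range_succ, pow_succ]
    have h2 : (0 : ℝ) ≤ ε ^ k := by positivity
    nlinarith [mul_nonneg h2 (by linarith : (0 : ℝ) ≤ 1 / 4 - ε)]

/-- **Covering lemma, capped weights.**  Items `i ∈ I` with weights `w i ∈ [0,1]` and
prices `π i ≥ 0` with `∑ w i * π i ≤ 1`.  There is a family `𝒥` of sets of items such that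
every set of items of weight at least `1/2` contains a member of `𝒥`, and the total product
price of `𝒥` at prices `π / 700` is at most `1/2`. -/
theorem cover_of_le_one {ι : Type*} [DecidableEq ι] (I : Finset ι) (π w : ι → ℝ)
    (hπ : ∀ i, 0 ≤ π i) (hw0 : ∀ i, 0 ≤ w i) (hw1 : ∀ i, w i ≤ 1)
    (hsum : ∑ i ∈ I, w i * π i ≤ 1) :
    ∃ 𝒥 : Finset (Finset ι),
      (∀ A ⊆ I, 1 / 2 ≤ ∑ i ∈ A, w i → ∃ J ∈ 𝒥, J ⊆ A) ∧
      ∑ J ∈ 𝒥, ∏ i ∈ J, (π i / 700) ≤ 1 / 2 := by
  classical
  let P : Finset ι := I.filter (fun i => 0 < w i)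
  let L : ℕ := P.sup (fun i => lev (w i)) + 1
  let Lv : ℕ → Finset ι := fun n => P.filter (fun i => lev (w i) = n)
  let c : ℕ → ℝ := fun n => ∑ i ∈ Lv n, w i * π i
  let m : ℕ → ℕ := fun n => ⌊(8 : ℝ) ^ n * c n / 8⌋₊ + n + 1
  have hPpos : ∀ i ∈ P, 0 < w i := fun i hi => (Finset.mem_filter.mp hi).2
  have hlevL : ∀ i ∈ P, lev (w i) ∈ Finset.range L := by
    intro i hi
    rw [Finset.mem_range]
    have : lev (w i) ≤ P.sup (fun i => lev (w i)) :=
      Finset.le_sup (f := fun i => lev (w i)) hi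
    omega
  have hc0 : ∀ n, 0 ≤ c n := fun n =>
    Finset.sum_nonneg (fun i _ => mul_nonneg (hw0 i) (hπ i))
  have hcsum : ∑ n ∈ Finset.range L, c n ≤ 1 := by
    have h1 : ∑ n ∈ Finset.range L, c n = ∑ i ∈ P, w i * π i :=
      Finset.sum_fiberwise_of_maps_to hlevL _
    rw [h1]
    refine le_trans ?_ hsum
    exact Finset.sum_le_sum_of_subset_of_nonneg (Finset.filter_subset _ _)
      (fun i _ _ => mul_nonneg (hw0 i) (hπ i))
  have hLv : ∀ n, ∀ i ∈ Lv n, (1 / 8 : ℝ) ^ (n + 1) < w i ∧ w i ≤ (1 / 8 : ℝ) ^ n := by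
    intro n i hi
    obtain ⟨hiP, hlev⟩ := Finset.mem_filter.mp hi
    have := lev_spec (hPpos i hiP) (hw1 i)
    rw [hlev] at this
    exact this
  have hm : ∀ n, (8 : ℝ) ^ n * c n / 8 < m n ∧ (n : ℝ) + 1 ≤ m n
      ∧ ((m n : ℝ) - 1 ≤ (8 : ℝ) ^ n * c n / 8 + n) := by
    intro n
    have hx : 0 ≤ (8 : ℝ) ^ n * c n / 8 := by have := hc0 n; positivity
    have h1 := Nat.lt_floor_add_one ((8 : ℝ) ^ n * c n / 8)
    have h2 := Nat.floor_le hx
    have h3 : (0 : ℝ) ≤ (⌊(8 : ℝ) ^ n * c n / 8⌋₊ : ℝ) := Nat.cast_nonneg _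
    simp only [m]
    push_cast
    refine ⟨by linarith, by linarith, by linarith⟩
  refine ⟨(Finset.range L).biUnion (fun n => (Lv n).powersetCard (m n)), ?_, ?_⟩
  · -- coverage
    intro A hA hAw
    by_contra hcon
    push Not at hcon
    let A' : Finset ι := A.filter (fun i => 0 < w i)
    have hA'P : A' ⊆ P := by
      intro i hi
      obtain ⟨h1, h2⟩ := Finset.mem_filter.mp hi
      exact Finset.mem_filter.mpr ⟨hA h1, h2⟩
    have hsumA : ∑ i ∈ A', w i = ∑ i ∈ A, w i := by
      apply Finset.sum_filter_of_ne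
      intro i _ hne
      exact lt_of_le_of_ne (hw0 i) (Ne.symm hne)
    let B : ℕ → Finset ι := fun n => A'.filter (fun i => lev (w i) = n)
    have hBcard : ∀ n ∈ Finset.range L, ((B n).card : ℝ) ≤ (8 : ℝ) ^ n * c n / 8 + n := by
      intro n hn
      have hBLv : B n ⊆ Lv n := by
        intro i hi
        obtain ⟨h1, h2⟩ := Finset.mem_filter.mp hi
        exact Finset.mem_filter.mpr ⟨hA'P h1, h2⟩
      have hlt : (B n).card < m n := by
        by_contra hge
        push Not at hge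
        obtain ⟨J, hJB, hJc⟩ := Finset.exists_subset_card_eq hge
        have hJmem : J ∈ (Finset.range L).biUnion (fun n => (Lv n).powersetCard (m n)) := by
          rw [Finset.mem_biUnion]
          exact ⟨n, hn, Finset.mem_powersetCard.mpr ⟨hJB.trans hBLv, hJc⟩⟩
        apply hcon J hJmem
        intro i hi
        exact (Finset.mem_filter.mp (Finset.mem_filter.mp (hJB hi)).1).1
      have h1 : ((B n).card : ℝ) + 1 ≤ m n := by exact_mod_cast hlt
      linarith [(hm n).2.2]
    have hsplit : ∑ i ∈ A', w i = ∑ n ∈ Finset.range L, ∑ i ∈ B n, w i :=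
      (Finset.sum_fiberwise_of_maps_to (fun i hi => hlevL i (hA'P hi)) _).symm
    have hlevel : ∀ n ∈ Finset.range L,
        ∑ i ∈ B n, w i ≤ c n / 8 + n * (1 / 8 : ℝ) ^ n := by
      intro n hn
      have h1 : ∑ i ∈ B n, w i ≤ (B n).card • (1 / 8 : ℝ) ^ n := by
        apply Finset.sum_le_card_nsmul
        intro i hi
        obtain ⟨h1, h2⟩ := Finset.mem_filter.mp hi
        have := lev_spec (hPpos i (hA'P h1)) (hw1 i)
        rw [h2] at this
        exact this.2
      rw [nsmul_eq_mul] at h1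
      have h2 := hBcard n hn
      have h3 : (0 : ℝ) ≤ (1 / 8 : ℝ) ^ n := by positivity
      have h4 : ((B n).card : ℝ) * (1 / 8 : ℝ) ^ n
          ≤ ((8 : ℝ) ^ n * c n / 8 + n) * (1 / 8 : ℝ) ^ n :=
        mul_le_mul_of_nonneg_right h2 h3
      have h5 : (8 : ℝ) ^ n * (1 / 8 : ℝ) ^ n = 1 := by
        rw [← mul_pow]; norm_num
      have h6 : ((8 : ℝ) ^ n * c n / 8 + n) * (1 / 8 : ℝ) ^ n
          = c n / 8 + n * (1 / 8 : ℝ) ^ n := by
        have : ((8 : ℝ) ^ n * c n / 8 + n) * (1 / 8 : ℝ) ^ n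
            = ((8 : ℝ) ^ n * (1 / 8 : ℝ) ^ n) * c n / 8 + n * (1 / 8 : ℝ) ^ n := by ring
        rw [this, h5]; ring
      linarith
    have htotal : ∑ i ∈ A, w i ≤ 1 / 8 + 2 / 7 := by
      rw [← hsumA, hsplit]
      refine le_trans (Finset.sum_le_sum hlevel) ?_
      rw [Finset.sum_add_distrib, ← Finset.sum_div]
      have h1 := sum_mul_pow_le L
      have h2 : (0 : ℝ) ≤ (2 * L + 2 / 7) * (1 / 8 : ℝ) ^ L := by positivity
      linarith
    linarith
  · -- cost
    set ε : ℝ := 64 * Real.exp 1 / 700 with hε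
    have hε0 : 0 ≤ ε := by positivity
    have hε1 : ε ≤ 1 / 4 := by
      have := Real.exp_one_lt_d9
      rw [hε]
      norm_num at this ⊢
      linarith
    have hlevelcost : ∀ n ∈ Finset.range L,
        ∑ J ∈ (Lv n).powersetCard (m n), ∏ i ∈ J, (π i / 700) ≤ ε ^ (n + 1) := by
      intro n hn
      have h1 := factorial_mul_sum_powersetCard_le (fun i => π i / 700)
        (fun i => div_nonneg (hπ i) (by norm_num)) (Lv n) (m n)
      have hE : ∑ i ∈ Lv n, π i / 700 ≤ 64 * (m n) / 700 := by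
        have h2 : ∑ i ∈ Lv n, π i ≤ (8 : ℝ) ^ (n + 1) * c n := by
          simp only [c]
          rw [Finset.mul_sum]
          apply Finset.sum_le_sum
          intro i hi
          have h3 := (hLv n i hi).1
          have h4 : 1 ≤ (8 : ℝ) ^ (n + 1) * w i := by
            have h5 : (8 : ℝ) ^ (n + 1) * (1 / 8 : ℝ) ^ (n + 1) = 1 := by
              rw [← mul_pow]; norm_num
            have h6 : (0 : ℝ) < (8 : ℝ) ^ (n + 1) := by positivity
            nlinarith
          have := mul_le_mul_of_nonneg_right h4 (hπ i)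
          linarith
        rw [← Finset.sum_div]
        have h7 := (hm n).1
        have h8 : (8 : ℝ) ^ (n + 1) * c n = 64 * ((8 : ℝ) ^ n * c n / 8) := by ring
        apply div_le_div_of_nonneg_right _ (by norm_num)
        linarith
      have hE0 : 0 ≤ ∑ i ∈ Lv n, π i / 700 :=
        Finset.sum_nonneg (fun i _ => div_nonneg (hπ i) (by norm_num))
      have h9 : (∑ i ∈ Lv n, π i / 700) ^ (m n) ≤ (64 * (m n) / 700) ^ (m n) :=
        pow_le_pow_left₀ hE0 hE _
      have hfact : (0 : ℝ) < ((m n).factorial : ℝ) := by exact_mod_cast Nat.factorial_pos _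
      have h10 := Real.pow_div_factorial_le_exp (x := (m n : ℝ)) (Nat.cast_nonneg _) (m n)
      have h11 : Real.exp (m n : ℝ) = Real.exp 1 ^ (m n) := by
        rw [← Real.exp_nat_mul, mul_one]
      have h12 : ∑ J ∈ (Lv n).powersetCard (m n), ∏ i ∈ J, (π i / 700) ≤ ε ^ (m n) := by
        have h13 : ∑ J ∈ (Lv n).powersetCard (m n), ∏ i ∈ J, (π i / 700)
            ≤ (64 * (m n) / 700) ^ (m n) / ((m n).factorial : ℝ) := by
          rw [le_div_iff₀ hfact]
          linarith [mul_comm ((m n).factorial : ℝ)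
            (∑ J ∈ (Lv n).powersetCard (m n), ∏ i ∈ J, (π i / 700))]
        have h14 : (64 * (m n : ℝ) / 700) ^ (m n) / ((m n).factorial : ℝ)
            = (64 / 700) ^ (m n) * ((m n : ℝ) ^ (m n) / ((m n).factorial : ℝ)) := by
          rw [show 64 * (m n : ℝ) / 700 = 64 / 700 * (m n : ℝ) by ring, mul_pow]; ring
        have h15 : ε ^ (m n) = (64 / 700) ^ (m n) * Real.exp 1 ^ (m n) := by
          rw [hε, show 64 * Real.exp 1 / 700 = 64 / 700 * Real.exp 1 by ring, mul_pow]
        rw [h14] at h13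
        rw [h15]
        refine le_trans h13 ?_
        apply mul_le_mul_of_nonneg_left _ (by positivity)
        rw [← h11]
        exact h10
      refine le_trans h12 ?_
      apply pow_le_pow_of_le_one hε0 (by linarith)
      have := (hm n).2.1
      exact_mod_cast this
    calc ∑ J ∈ (Finset.range L).biUnion (fun n => (Lv n).powersetCard (m n)),
          ∏ i ∈ J, (π i / 700)
        ≤ ∑ n ∈ Finset.range L, ∑ J ∈ (Lv n).powersetCard (m n), ∏ i ∈ J, (π i / 700) :=
          sum_biUnion_le_sum _ _ _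
            (fun J => Finset.prod_nonneg (fun i _ => div_nonneg (hπ i) (by norm_num)))
      _ ≤ ∑ n ∈ Finset.range L, ε ^ (n + 1) := Finset.sum_le_sum hlevelcost
      _ ≤ 1 / 2 := by
        have h1 := sum_pow_succ_le ε hε0 hε1 L
        have h2 : (0 : ℝ) ≤ ε ^ L := by positivity
        linarith

/-- **Covering lemma.**  Items `i ∈ I` with weights `w i ≥ 0` and prices `π i ≥ 0` with
`∑ w i * π i ≤ 1`.  There is a family `𝒥` of sets of items such that every set of items of
weight at least `1/2` contains a member of `𝒥`, and the total product price of `𝒥` at prices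
`π / 700` is at most `1/2`. -/
theorem cover_of_weights {ι : Type*} [DecidableEq ι] (I : Finset ι) (π w : ι → ℝ)
    (hπ : ∀ i, 0 ≤ π i) (hw0 : ∀ i, 0 ≤ w i) (hsum : ∑ i ∈ I, w i * π i ≤ 1) :
    ∃ 𝒥 : Finset (Finset ι),
      (∀ A ⊆ I, 1 / 2 ≤ ∑ i ∈ A, w i → ∃ J ∈ 𝒥, J ⊆ A) ∧
      ∑ J ∈ 𝒥, ∏ i ∈ J, (π i / 700) ≤ 1 / 2 := by
  obtain ⟨𝒥, h1, h2⟩ := cover_of_le_one I π (fun i => min (w i) 1) hπ
    (fun i => le_min (hw0 i) zero_le_one) (fun i => min_le_right _ _)
    (le_trans (Finset.sum_le_sum fun i _ =>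
      mul_le_mul_of_nonneg_right (min_le_left _ _) (hπ i)) hsum)
  refine ⟨𝒥, fun A hA hAw => h1 A hA ?_, h2⟩
  by_cases hbig : ∃ i ∈ A, 1 ≤ w i
  · obtain ⟨i, hi, hwi⟩ := hbig
    have h3 : min (w i) 1 ≤ ∑ j ∈ A, min (w j) 1 :=
      Finset.single_le_sum (f := fun j => min (w j) 1)
        (fun j _ => le_min (hw0 j) zero_le_one) hi
    rw [min_eq_right hwi] at h3
    linarith
  · push Not at hbig
    have h3 : ∑ j ∈ A, min (w j) 1 = ∑ j ∈ A, w j :=
      Finset.sum_congr rfl (fun j hj => min_eq_left (hbig j hj).le)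
    rw [h3]
    exact hAw

theorem geom_le_two (q : ℝ) (h0 : 0 ≤ q) (h1 : q ≤ 1 / 2) (M : ℕ) :
    ∑ j ∈ Finset.range M, q ^ j ≤ 2 - 2 * q ^ M := by
  induction M with
  | zero => simp
  | succ k ih =>
    rw [Finset.sum_range_succ, pow_succ]
    have h2 : (0 : ℝ) ≤ q ^ k := by positivity
    nlinarith [mul_nonneg h2 (by linarith : (0 : ℝ) ≤ 1 / 2 - q)]

end Vale.Agent.Lib.Helper7.LaminarCover
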