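import Mathlib
import Vale.Agent.Lib.Helper7.LaminarCover

/-!
# Rounding fractional covers supported on connected sets

Auxiliary results for P034.  `abstract_rounding`: a fractional cover whose support lies in a
family of sets that is closed under unions of intersecting members and has controlled growth
can be rounded.  `good_sum_le`: a counting estimate for sets that are connected with respect
to a set family of bounded degree.  `connected_rounding` combines the two.
-/

namespace Vale.Agent.Lib.Helper7.ConnectedCover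

open Finset

variable {X : Type} [Fintype X] [DecidableEq X]

/-- **Abstract rounding.**  `g ≥ 0` satisfies the covering inequalities for `F` and has cost
at most `1/2` at `p`.  `𝓡` is a family of nonempty sets containing the nonempty support sets
of `g`, closed under unions of intersecting members, and such that for each nonempty support
set `S` the sum of `q0 ^ |R|` over the members `R ⊇ S` of `𝓡` is at most `2 p ^ |S|`.
Then `F` has a cover of cost at most `1/2` at `q0 / 700`. -/
theorem abstract_rounding (F : Finset (Finset X)) (p : ℝ) (hp0 : 0 ≤ p)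
    (g : Finset X → ℝ) (hg0 : ∀ S, 0 ≤ g S) (hcov : ∀ H ∈ F, 1 ≤ ∑ S ∈ H.powerset, g S)
    (hcost : ∑ S : Finset X, g S * p ^ S.card ≤ 1 / 2)
    (𝓡 : Finset (Finset X)) (q0 : ℝ) (hq0 : 0 ≤ q0)
    (hne : ∀ R ∈ 𝓡, R.Nonempty)
    (hsupp : ∀ S : Finset X, g S ≠ 0 → S.Nonempty → S ∈ 𝓡)
    (hunion : ∀ R ∈ 𝓡, ∀ R' ∈ 𝓡, ¬ Disjoint R R' → R ∪ R' ∈ 𝓡)
    (hgrowth : ∀ S : Finset X, g S ≠ 0 → S.Nonempty →
      ∑ R ∈ 𝓡.filter (fun R => S ⊆ R), q0 ^ R.card ≤ 2 * p ^ S.card) :
    ∃ G : Finset (Finset X), (∀ H ∈ F, ∃ S ∈ G, S ⊆ H) ∧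
      ∑ S ∈ G, (q0 / 700) ^ S.card ≤ 1 / 2 := by
  classical
  let I : Finset (Finset X) := Finset.univ.filter (fun S => g S ≠ 0 ∧ S.Nonempty)
  have hI : ∀ S, S ∈ I ↔ g S ≠ 0 ∧ S.Nonempty := by
    intro S
    simp [I]
  let π : Finset X → ℝ := fun S => q0 ^ S.card
  let W : Finset X → ℝ := fun S => ∑ T ∈ I.filter (fun T => T ⊆ S), g T
  have hπ0 : ∀ S, 0 ≤ π S := fun S => pow_nonneg hq0 _
  have hW0 : ∀ S, 0 ≤ W S := fun S => Finset.sum_nonneg (fun T _ => hg0 T)
  have hkey : ∑ R ∈ 𝓡, W R * π R ≤ 1 := by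
    have h1 : ∑ R ∈ 𝓡, W R * π R
        = ∑ T ∈ I, g T * ∑ R ∈ 𝓡.filter (fun R => T ⊆ R), π R := by
      simp only [W, Finset.sum_filter, Finset.sum_mul, Finset.mul_sum, ite_mul, zero_mul,
        mul_ite, mul_zero]
      exact Finset.sum_comm
    have h2 : ∀ T ∈ I, g T * ∑ R ∈ 𝓡.filter (fun R => T ⊆ R), π R
        ≤ 2 * (g T * p ^ T.card) := by
      intro T hT
      have h3 := hgrowth T ((hI T).mp hT).1 ((hI T).mp hT).2
      have h4 : ∑ R ∈ 𝓡.filter (fun R => T ⊆ R), π R
          = ∑ R ∈ 𝓡.filter (fun R => T ⊆ R), q0 ^ R.card := rfl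
      rw [h4]
      have := mul_le_mul_of_nonneg_left h3 (hg0 T)
      linarith
    rw [h1]
    have h9 : ∑ T ∈ I, g T * p ^ T.card ≤ ∑ S : Finset X, g S * p ^ S.card := by
      apply Finset.sum_le_sum_of_subset_of_nonneg (Finset.subset_univ _)
      intro T _ _
      exact mul_nonneg (hg0 T) (pow_nonneg hp0 _)
    have h10 := Finset.sum_le_sum h2
    rw [← Finset.mul_sum] at h10
    linarith
  obtain ⟨𝒥, hcov𝒥, hcost𝒥⟩ :=
    Vale.Agent.Lib.Helper7.LaminarCover.cover_of_weights 𝓡 π W hπ0 hW0 hkey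
  let PD : Finset (Finset X) → Prop :=
    fun J => J ⊆ 𝓡 ∧ (J : Set (Finset X)).PairwiseDisjoint id
  refine ⟨(𝒥.filter PD).image (fun J => J.biUnion id), ?_, ?_⟩
  · -- coverage
    intro H hH
    let RH : Finset (Finset X) := 𝓡.filter (fun S => S ⊆ H)
    let IH : Finset (Finset X) := I.filter (fun S => S ⊆ H)
    let A : Finset (Finset X) := RH.filter (fun S => ∀ S' ∈ RH, S ⊆ S' → S' = S)
    have hAR : A ⊆ 𝓡 := fun S hS => (Finset.mem_filter.mp (Finset.mem_filter.mp hS).1).1
    have hAH : ∀ S ∈ A, S ⊆ H :=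
      fun S hS => (Finset.mem_filter.mp (Finset.mem_filter.mp hS).1).2
    have hApd : (A : Set (Finset X)).PairwiseDisjoint id := by
      intro S hS S' hS' hne'
      have hS1 := Finset.mem_filter.mp (Finset.mem_coe.mp hS)
      have hS'1 := Finset.mem_filter.mp (Finset.mem_coe.mp hS')
      have hSR := hAR (Finset.mem_coe.mp hS)
      have hS'R := hAR (Finset.mem_coe.mp hS')
      by_contra hnd
      have hu : S ∪ S' ∈ RH := by
        refine Finset.mem_filter.mpr ⟨hunion S hSR S' hS'R hnd, ?_⟩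
        exact Finset.union_subset (hAH S (Finset.mem_coe.mp hS)) (hAH S' (Finset.mem_coe.mp hS'))
      have e1 := hS1.2 (S ∪ S') hu Finset.subset_union_left
      have e2 := hS'1.2 (S ∪ S') hu Finset.subset_union_right
      exact hne' (e1.symm.trans e2)
    have hg_empty : g ∅ ≤ 1 / 2 := by
      have h1 : g ∅ * p ^ (∅ : Finset X).card ≤ ∑ S : Finset X, g S * p ^ S.card :=
        Finset.single_le_sum (f := fun S => g S * p ^ S.card)
          (fun S _ => mul_nonneg (hg0 S) (pow_nonneg hp0 _)) (Finset.mem_univ ∅)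
      simp at h1
      linarith
    have hIHsum : 1 / 2 ≤ ∑ T ∈ IH, g T := by
      have h1 := hcov H hH
      have h2 : ∑ T ∈ H.powerset, g T ≤ ∑ T ∈ insert ∅ IH, g T := by
        rw [← Finset.sum_filter_ne_zero (s := H.powerset)]
        apply Finset.sum_le_sum_of_subset_of_nonneg
        · intro T hT
          obtain ⟨hTH, hgT⟩ := Finset.mem_filter.mp hT
          rw [Finset.mem_powerset] at hTH
          rw [Finset.mem_insert]
          by_cases hTe : T = ∅
          · exact Or.inl hTe
          · right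
            exact Finset.mem_filter.mpr
              ⟨(hI T).mpr ⟨hgT, Finset.nonempty_iff_ne_empty.mpr hTe⟩, hTH⟩
        · intro T _ _
          exact hg0 T
      have h3 : (∅ : Finset X) ∉ IH := by
        intro h
        have := ((hI ∅).mp (Finset.mem_filter.mp h).1).2
        simp at this
      rw [Finset.sum_insert h3] at h2
      linarith
    have hAw : 1 / 2 ≤ ∑ S ∈ A, W S := by
      refine le_trans hIHsum ?_
      refine le_trans ?_ (Vale.Agent.Lib.Helper7.LaminarCover.sum_biUnion_le_sum A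
        (fun S => I.filter (fun T => T ⊆ S)) g hg0)
      apply Finset.sum_le_sum_of_subset_of_nonneg
      · intro T hT
        obtain ⟨hTI, hTH⟩ := Finset.mem_filter.mp hT
        have hTR : T ∈ RH :=
          Finset.mem_filter.mpr ⟨hsupp T ((hI T).mp hTI).1 ((hI T).mp hTI).2, hTH⟩
        have hne' : (RH.filter (fun S => T ⊆ S)).Nonempty :=
          ⟨T, Finset.mem_filter.mpr ⟨hTR, Finset.Subset.refl T⟩⟩
        obtain ⟨S0, hS0, hmax⟩ :=
          Finset.exists_max_image (RH.filter (fun S => T ⊆ S)) Finset.card hne'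
        obtain ⟨hS0RH, hTS0⟩ := Finset.mem_filter.mp hS0
        rw [Finset.mem_biUnion]
        refine ⟨S0, ?_, Finset.mem_filter.mpr ⟨hTI, hTS0⟩⟩
        refine Finset.mem_filter.mpr ⟨hS0RH, ?_⟩
        intro S' hS' hsub
        have := hmax S' (Finset.mem_filter.mpr ⟨hS', hTS0.trans hsub⟩)
        exact (Finset.eq_of_subset_of_card_le hsub this).symm
      · intro T _ _
        exact hg0 T
    obtain ⟨J, hJ𝒥, hJA⟩ := hcov𝒥 A hAR hAw
    refine ⟨J.biUnion id, ?_, ?_⟩
    · rw [Finset.mem_image]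
      refine ⟨J, Finset.mem_filter.mpr ⟨hJ𝒥, hJA.trans hAR, ?_⟩, rfl⟩
      exact hApd.subset (Finset.coe_subset.mpr hJA)
    · intro x hx
      obtain ⟨S, hSJ, hxS⟩ := Finset.mem_biUnion.mp hx
      exact hAH S (hJA hSJ) hxS
  · -- cost
    have h1 : ∑ S ∈ (𝒥.filter PD).image (fun J => J.biUnion id), (q0 / 700) ^ S.card
        ≤ ∑ J ∈ 𝒥.filter PD, (q0 / 700) ^ (J.biUnion id).card := by
      rw [← Finset.biUnion_singleton]
      refine le_trans (Vale.Agent.Lib.Helper7.LaminarCover.sum_biUnion_le_sum _ _ _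
        (fun S => by positivity)) ?_
      simp
    have h2 : ∀ J ∈ 𝒥.filter PD,
        (q0 / 700) ^ (J.biUnion id).card ≤ ∏ S ∈ J, (π S / 700) := by
      intro J hJ
      obtain ⟨_, hJI, hJpd⟩ := Finset.mem_filter.mp hJ
      rw [Finset.card_biUnion hJpd, ← Finset.prod_pow_eq_pow_sum]
      apply Finset.prod_le_prod
      · intro S _
        positivity
      · intro S hS
        have hcard : 1 ≤ S.card := Finset.card_pos.mpr (hne S (hJI hS))
        have h3 : (q0 / 700) ^ S.card = q0 ^ S.card * (1 / 700 : ℝ) ^ S.card := by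
          rw [← mul_pow]
          congr 1
          ring
        have h4 : (1 / 700 : ℝ) ^ S.card ≤ (1 / 700 : ℝ) ^ 1 :=
          pow_le_pow_of_le_one (by norm_num) (by norm_num) hcard
        have h5 : (0 : ℝ) ≤ q0 ^ S.card := pow_nonneg hq0 _
        have h6 := mul_le_mul_of_nonneg_left h4 h5
        have h7 : π S / 700 = q0 ^ S.card * (1 / 700 : ℝ) ^ 1 := by
          simp only [π]
          ring
        rw [h7]
        simp only [id]
        rw [h3]
        exact h6
    calc ∑ S ∈ (𝒥.filter PD).image (fun J => J.biUnion id), (q0 / 700) ^ S.card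
        ≤ ∑ J ∈ 𝒥.filter PD, ∏ S ∈ J, (π S / 700) := le_trans h1 (Finset.sum_le_sum h2)
      _ ≤ ∑ J ∈ 𝒥, ∏ S ∈ J, (π S / 700) :=
        Finset.sum_le_sum_of_subset_of_nonneg (Finset.filter_subset _ _)
          (fun J _ _ => Finset.prod_nonneg (fun S _ => div_nonneg (hπ0 S) (by norm_num)))
      _ ≤ 1 / 2 := hcost𝒥

/-- `R` is good for the base `S` and the family `U`: `S ⊆ R` and every intermediate set
`S ⊆ R' ⊂ R` is crossed by a member of `U` lying inside `R`. -/
def Good (U : Finset (Finset X)) (S R : Finset X) : Prop :=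
  S ⊆ R ∧ ∀ R' : Finset X, S ⊆ R' → R' ⊂ R →
    ∃ T ∈ U, T ⊆ R ∧ ¬ Disjoint T R' ∧ ¬ T ⊆ R'

open Classical in
/-- The finite set of good sets. -/
noncomputable def goodSet (U : Finset (Finset X)) (S : Finset X) : Finset (Finset X) :=
  Finset.univ.filter (fun R => Good U S R)

omit [DecidableEq X] in
theorem mem_goodSet (U : Finset (Finset X)) (S R : Finset X) :
    R ∈ goodSet U S ↔ Good U S R := by
  classical
  simp [goodSet]

/-- The number of members of `U` that meet `S`. -/
def meetCount (U : Finset (Finset X)) (S : Finset X) : ℕ :=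
  (U.filter (fun T => ¬ Disjoint T S)).card

/-- **Counting good sets.**  If every point lies in at most `D` members of `U` and
`x (1+y)^D ≤ y ≤ 1`, then the sum of `x ^ (|R| - |S|)` over the good sets `R` for the base
`S` is at most the power of `1+y` whose exponent is the number of members of `U` meeting `S`. -/
theorem good_sum_le (D : ℕ) (x y : ℝ) (hx : 0 ≤ x) (hy0 : 0 ≤ y) (hy1 : y ≤ 1)
    (hxy : x * (1 + y) ^ D ≤ y) (U : Finset (Finset X)) :
    (∀ a : X, (U.filter (fun T => a ∈ T)).card ≤ D) →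
    ∀ S : Finset X,
      ∑ R ∈ goodSet U S, x ^ (R.card - S.card) ≤ (1 + y) ^ meetCount U S := by
  classical
  induction U using Finset.strongInduction with
  | H U ih =>
    intro hdeg S
    have h1y : (1 : ℝ) ≤ 1 + y := by linarith
    by_cases hex : ∃ T ∈ U, ¬ Disjoint T S ∧ ¬ T ⊆ S
    · obtain ⟨T, hTU, hTS, hTnS⟩ := hex
      have hU' : U.erase T ⊂ U := Finset.erase_ssubset hTU
      have hdeg' : ∀ a : X, ((U.erase T).filter (fun T => a ∈ T)).card ≤ D := fun a =>
        le_trans (Finset.card_le_card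
          (Finset.filter_subset_filter _ (Finset.erase_subset _ _))) (hdeg a)
      have ih1 := ih (U.erase T) hU' hdeg' S
      have ih2 := ih (U.erase T) hU' hdeg' (S ∪ T)
      have hSsub : S ⊂ S ∪ T := by
        refine Finset.ssubset_iff_subset_ne.mpr ⟨Finset.subset_union_left, ?_⟩
        intro h
        apply hTnS
        rw [h]
        exact Finset.subset_union_right
      have hcardlt := Finset.card_lt_card hSsub
      obtain ⟨t, ht⟩ : ∃ t : ℕ, t = (S ∪ T).card - S.card := ⟨_, rfl⟩
      have ht1 : 1 ≤ t := by omega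
      -- potentials
      have hb1b : meetCount (U.erase T) S + 1 = meetCount U S := by
        unfold meetCount
        rw [Finset.filter_erase,
          Finset.card_erase_of_mem (Finset.mem_filter.mpr ⟨hTU, hTS⟩)]
        have : 0 < (U.filter (fun T => ¬ Disjoint T S)).card :=
          Finset.card_pos.mpr ⟨T, Finset.mem_filter.mpr ⟨hTU, hTS⟩⟩
        omega
      have hb2b : meetCount (U.erase T) (S ∪ T) ≤ meetCount (U.erase T) S + D * t := by
        unfold meetCount
        have hsub : (U.erase T).filter (fun T' => ¬ Disjoint T' (S ∪ T))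
            ⊆ (U.erase T).filter (fun T' => ¬ Disjoint T' S)
              ∪ ((S ∪ T) \ S).biUnion (fun a => (U.erase T).filter (fun T' => a ∈ T')) := by
          intro T' hT'
          obtain ⟨hT'U, hT'd⟩ := Finset.mem_filter.mp hT'
          rw [Finset.not_disjoint_iff] at hT'd
          obtain ⟨a, haT', haST⟩ := hT'd
          rw [Finset.mem_union]
          by_cases haS : a ∈ S
          · left
            exact Finset.mem_filter.mpr ⟨hT'U, Finset.not_disjoint_iff.mpr ⟨a, haT', haS⟩⟩
          · right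
            rw [Finset.mem_biUnion]
            exact ⟨a, Finset.mem_sdiff.mpr ⟨haST, haS⟩, Finset.mem_filter.mpr ⟨hT'U, haT'⟩⟩
        have h1 := Finset.card_le_card hsub
        have h2 := Finset.card_union_le ((U.erase T).filter (fun T' => ¬ Disjoint T' S))
          (((S ∪ T) \ S).biUnion (fun a => (U.erase T).filter (fun T' => a ∈ T')))
        have h3 : (((S ∪ T) \ S).biUnion
            (fun a => (U.erase T).filter (fun T' => a ∈ T'))).card ≤ ((S ∪ T) \ S).card * D :=
          Finset.card_biUnion_le_card_mul _ _ _ (fun a _ => hdeg' a)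
        have h4 : ((S ∪ T) \ S).card = t := by
          rw [ht]
          exact Finset.card_sdiff_of_subset Finset.subset_union_left
        rw [h4] at h3
        have h5 : t * D = D * t := mul_comm t D
        omega
      -- split the sum
      have hsplit : ∑ R ∈ goodSet U S, x ^ (R.card - S.card)
          = ∑ R ∈ (goodSet U S).filter (fun R => T ⊆ R), x ^ (R.card - S.card)
          + ∑ R ∈ (goodSet U S).filter (fun R => ¬ T ⊆ R), x ^ (R.card - S.card) :=
        (Finset.sum_filter_add_sum_filter_not _ _ _).symm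
      -- branch 1: sets not containing `T`
      have hbr1 : ∑ R ∈ (goodSet U S).filter (fun R => ¬ T ⊆ R), x ^ (R.card - S.card)
          ≤ (1 + y) ^ meetCount (U.erase T) S := by
        refine le_trans ?_ ih1
        apply Finset.sum_le_sum_of_subset_of_nonneg
        · intro R hR
          obtain ⟨hR1, hTR⟩ := Finset.mem_filter.mp hR
          have hgood := (mem_goodSet U S R).mp hR1
          refine (mem_goodSet _ _ _).mpr ⟨hgood.1, ?_⟩
          intro R' hSR' hR'R
          obtain ⟨T', hT'U, hT'R, h1, h2⟩ := hgood.2 R' hSR' hR'R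
          refine ⟨T', Finset.mem_erase.mpr ⟨?_, hT'U⟩, hT'R, h1, h2⟩
          intro h
          rw [h] at hT'R
          exact hTR hT'R
        · intro R _ _
          exact pow_nonneg hx _
      -- branch 2: sets containing `T`
      have hbr2 : ∑ R ∈ (goodSet U S).filter (fun R => T ⊆ R), x ^ (R.card - S.card)
          ≤ x ^ t * (1 + y) ^ meetCount (U.erase T) (S ∪ T) := by
        have h1 : ∑ R ∈ (goodSet U S).filter (fun R => T ⊆ R), x ^ (R.card - S.card)
            = x ^ t * ∑ R ∈ (goodSet U S).filter (fun R => T ⊆ R),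
                x ^ (R.card - (S ∪ T).card) := by
          rw [Finset.mul_sum]
          apply Finset.sum_congr rfl
          intro R hR
          obtain ⟨hR1, hTR⟩ := Finset.mem_filter.mp hR
          have hgood := (mem_goodSet U S R).mp hR1
          have hle : (S ∪ T).card ≤ R.card :=
            Finset.card_le_card (Finset.union_subset hgood.1 hTR)
          rw [← pow_add]
          congr 1
          omega
        rw [h1]
        apply mul_le_mul_of_nonneg_left _ (pow_nonneg hx _)
        refine le_trans ?_ ih2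
        apply Finset.sum_le_sum_of_subset_of_nonneg
        · intro R hR
          obtain ⟨hR1, hTR⟩ := Finset.mem_filter.mp hR
          have hgood := (mem_goodSet U S R).mp hR1
          refine (mem_goodSet _ _ _).mpr ⟨Finset.union_subset hgood.1 hTR, ?_⟩
          intro R' hSR' hR'R
          obtain ⟨T', hT'U, hT'R, h1, h2⟩ :=
            hgood.2 R' (Finset.subset_union_left.trans hSR') hR'R
          refine ⟨T', Finset.mem_erase.mpr ⟨?_, hT'U⟩, hT'R, h1, h2⟩
          intro h
          rw [h] at h2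
          exact h2 (Finset.subset_union_right.trans hSR')
        · intro R _ _
          exact pow_nonneg hx _
      -- combine
      rw [hsplit]
      have hpow1 : (1 + y) ^ meetCount U S = (1 + y) ^ meetCount (U.erase T) S * (1 + y) := by
        rw [← hb1b, pow_succ]
      have hpow2 : (1 + y) ^ meetCount (U.erase T) (S ∪ T)
          ≤ (1 + y) ^ (meetCount (U.erase T) S + D * t) := pow_le_pow_right₀ h1y hb2b
      have hpow3 : (1 + y) ^ (meetCount (U.erase T) S + D * t)
          = (1 + y) ^ meetCount (U.erase T) S * ((1 + y) ^ D) ^ t := by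
        rw [pow_add, pow_mul]
      have hxt : x ^ t * ((1 + y) ^ D) ^ t ≤ y := by
        rw [← mul_pow]
        calc (x * (1 + y) ^ D) ^ t ≤ y ^ t := pow_le_pow_left₀ (by positivity) hxy t
          _ ≤ y ^ 1 := pow_le_pow_of_le_one hy0 hy1 ht1
          _ = y := pow_one y
      have hb1pos : (0 : ℝ) ≤ (1 + y) ^ meetCount (U.erase T) S := by positivity
      have hA := mul_le_mul_of_nonneg_left (hpow2.trans_eq hpow3) (pow_nonneg hx t)
      have hB := mul_le_mul_of_nonneg_left hxt hb1pos
      rw [hpow1]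
      nlinarith [hbr1, hbr2, hA, hB]
    · -- base: only `S` itself can be good
      push Not at hex
      have hsub : goodSet U S ⊆ {S} := by
        intro R hR
        have hgood := (mem_goodSet U S R).mp hR
        rw [Finset.mem_singleton]
        by_contra hne
        have hlt : S ⊂ R := Finset.ssubset_iff_subset_ne.mpr ⟨hgood.1, fun h => hne h.symm⟩
        obtain ⟨T', hT'U, _, h1, h2⟩ := hgood.2 S (Finset.Subset.refl S) hlt
        exact h2 (hex T' hT'U h1)
      calc ∑ R ∈ goodSet U S, x ^ (R.card - S.card)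
          ≤ ∑ R ∈ ({S} : Finset (Finset X)), x ^ (R.card - S.card) :=
            Finset.sum_le_sum_of_subset_of_nonneg hsub (fun R _ _ => pow_nonneg hx _)
        _ = 1 := by simp
        _ ≤ (1 + y) ^ meetCount U S := one_le_pow₀ h1y

/-- `R` is connected with respect to the set family `L`: `R` is nonempty and every nonempty
proper subset `R'` of `R` is crossed by a member of `L` lying inside `R` (a member that meets
`R'` and is not contained in `R'`). -/
def LConn (L : Finset (Finset X)) (R : Finset X) : Prop :=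
  R.Nonempty ∧ ∀ R' : Finset X, R'.Nonempty → R' ⊂ R →
    ∃ T ∈ L, T ⊆ R ∧ ¬ Disjoint T R' ∧ ¬ T ⊆ R'

omit [Fintype X] [DecidableEq X] in
theorem lconn_of_mem {L : Finset (Finset X)} {T : Finset X} (hT : T ∈ L) (hne : T.Nonempty) :
    LConn L T := by
  refine ⟨hne, fun R' hR' hlt => ⟨T, hT, Finset.Subset.refl T, ?_, hlt.2⟩⟩
  obtain ⟨z, hz⟩ := hR'
  exact Finset.not_disjoint_iff.mpr ⟨z, hlt.1 hz, hz⟩

omit [Fintype X] [DecidableEq X] in
theorem lconn_good {L : Finset (Finset X)} {S R : Finset X} (h : LConn L R) (hS : S.Nonempty)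
    (hSR : S ⊆ R) : Good L S R :=
  ⟨hSR, fun R' hSR' hR'R => h.2 R' (hS.mono hSR') hR'R⟩

omit [Fintype X] in
theorem lconn_union {L : Finset (Finset X)} {R1 R2 : Finset X} (h1 : LConn L R1)
    (h2 : LConn L R2) (hnd : ¬ Disjoint R1 R2) : LConn L (R1 ∪ R2) := by
  classical
  refine ⟨h1.1.mono Finset.subset_union_left, ?_⟩
  intro R' hR' hlt
  obtain ⟨x, hx1, hx2⟩ := Finset.not_disjoint_iff.mp hnd
  by_cases c1 : (R' ∩ R1).Nonempty ∧ ¬ R1 ⊆ R'
  · have hss : R' ∩ R1 ⊂ R1 := by
      refine ⟨Finset.inter_subset_right, ?_⟩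
      intro h
      exact c1.2 (h.trans Finset.inter_subset_left)
    obtain ⟨T, hTL, hTR, hTd, hTn⟩ := h1.2 (R' ∩ R1) c1.1 hss
    refine ⟨T, hTL, hTR.trans Finset.subset_union_left, ?_, ?_⟩
    · obtain ⟨z, hzT, hz⟩ := Finset.not_disjoint_iff.mp hTd
      exact Finset.not_disjoint_iff.mpr ⟨z, hzT, (Finset.mem_inter.mp hz).1⟩
    · intro h
      exact hTn (Finset.subset_inter h hTR)
  · by_cases c2 : (R' ∩ R2).Nonempty ∧ ¬ R2 ⊆ R'
    · have hss : R' ∩ R2 ⊂ R2 := by
        refine ⟨Finset.inter_subset_right, ?_⟩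
        intro h
        exact c2.2 (h.trans Finset.inter_subset_left)
      obtain ⟨T, hTL, hTR, hTd, hTn⟩ := h2.2 (R' ∩ R2) c2.1 hss
      refine ⟨T, hTL, hTR.trans Finset.subset_union_right, ?_, ?_⟩
      · obtain ⟨z, hzT, hz⟩ := Finset.not_disjoint_iff.mp hTd
        exact Finset.not_disjoint_iff.mpr ⟨z, hzT, (Finset.mem_inter.mp hz).1⟩
      · intro h
        exact hTn (Finset.subset_inter h hTR)
    · exfalso
      have d1 : R1 ⊆ R' ∨ ¬ (R' ∩ R1).Nonempty := by
        by_cases h : R1 ⊆ R'
        · exact Or.inl h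
        · exact Or.inr (fun hne => c1 ⟨hne, h⟩)
      have d2 : R2 ⊆ R' ∨ ¬ (R' ∩ R2).Nonempty := by
        by_cases h : R2 ⊆ R'
        · exact Or.inl h
        · exact Or.inr (fun hne => c2 ⟨hne, h⟩)
      rcases d1 with a1 | a1
      · rcases d2 with a2 | a2
        · exact hlt.2 (Finset.union_subset a1 a2)
        · exact a2 ⟨x, Finset.mem_inter.mpr ⟨a1 hx1, hx2⟩⟩
      · rcases d2 with a2 | a2
        · exact a1 ⟨x, Finset.mem_inter.mpr ⟨a2 hx2, hx1⟩⟩
        · obtain ⟨z, hz⟩ := hR'
          rcases Finset.mem_union.mp (hlt.1 hz) with hz1 | hz2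
          · exact a1 ⟨z, Finset.mem_inter.mpr ⟨hz, hz1⟩⟩
          · exact a2 ⟨z, Finset.mem_inter.mpr ⟨hz, hz2⟩⟩

/-- **Rounding for supports connected with respect to a family of bounded degree.**
`g ≥ 0` satisfies the covering inequalities for `F` and has cost at most `1/2` at `p ≤ 1`.
`L` is a set family in which every point lies in at most `D ≥ 1` members, and every nonempty
support set of `g` is connected with respect to `L`.  Then `F` has a cover of cost at most
`1/2` at `p / (2100 D)`. -/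
theorem connected_rounding (F : Finset (Finset X)) (p : ℝ) (hp0 : 0 ≤ p) (hp1 : p ≤ 1)
    (g : Finset X → ℝ) (hg0 : ∀ S, 0 ≤ g S) (hcov : ∀ H ∈ F, 1 ≤ ∑ S ∈ H.powerset, g S)
    (hcost : ∑ S : Finset X, g S * p ^ S.card ≤ 1 / 2)
    (L : Finset (Finset X)) (D : ℕ) (hD : 1 ≤ D)
    (hdeg : ∀ a : X, (L.filter (fun T => a ∈ T)).card ≤ D)
    (hconn : ∀ S : Finset X, g S ≠ 0 → S.Nonempty → LConn L S) :
    ∃ G : Finset (Finset X), (∀ H ∈ F, ∃ S ∈ G, S ⊆ H) ∧
      ∑ S ∈ G, (p / (2100 * D)) ^ S.card ≤ 1 / 2 := by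
  classical
  have hD1 : (1 : ℝ) ≤ D := by exact_mod_cast hD
  have hDpos : (0 : ℝ) < D := by linarith
  obtain ⟨q0, hq0def⟩ : ∃ q0 : ℝ, q0 = p / (3 * D) := ⟨_, rfl⟩
  obtain ⟨y, hydef⟩ : ∃ y : ℝ, y = p / D := ⟨_, rfl⟩
  have hq0 : 0 ≤ q0 := by rw [hq0def]; positivity
  have hy0 : 0 ≤ y := by rw [hydef]; positivity
  have hyp : y ≤ p := by
    rw [hydef]
    exact div_le_self hp0 hD1
  have hy1 : y ≤ 1 := hyp.trans hp1
  have hxy : q0 * (1 + y) ^ D ≤ y := by
    have h1 : (1 + y) ^ D ≤ Real.exp p := by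
      have h2 : 1 + y ≤ Real.exp y := by linarith [Real.add_one_le_exp y]
      calc (1 + y) ^ D ≤ (Real.exp y) ^ D := pow_le_pow_left₀ (by linarith) h2 D
        _ = Real.exp (D * y) := by rw [← Real.exp_nat_mul]
        _ = Real.exp p := by
          congr 1
          rw [hydef]
          field_simp
    have h3 : Real.exp p ≤ 3 := by
      have e1 := Real.exp_le_exp.mpr hp1
      have e2 := Real.exp_one_lt_d9
      norm_num at e2
      linarith
    have h4 : q0 * (1 + y) ^ D ≤ q0 * 3 := mul_le_mul_of_nonneg_left (h1.trans h3) hq0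
    have h5 : q0 * 3 = y := by
      rw [hq0def, hydef]
      field_simp
    linarith
  let 𝓡 : Finset (Finset X) := Finset.univ.filter (fun R => LConn L R)
  have h𝓡 : ∀ R, R ∈ 𝓡 ↔ LConn L R := by
    intro R
    simp [𝓡]
  have hgrowth : ∀ S : Finset X, g S ≠ 0 → S.Nonempty →
      ∑ R ∈ 𝓡.filter (fun R => S ⊆ R), q0 ^ R.card ≤ 2 * p ^ S.card := by
    intro S hgS hSne
    have h1 : ∑ R ∈ 𝓡.filter (fun R => S ⊆ R), q0 ^ R.card
        ≤ ∑ R ∈ goodSet L S, q0 ^ R.card := by
      apply Finset.sum_le_sum_of_subset_of_nonneg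
      · intro R hR
        obtain ⟨hR1, hSR⟩ := Finset.mem_filter.mp hR
        exact (mem_goodSet L S R).mpr (lconn_good ((h𝓡 R).mp hR1) hSne hSR)
      · intro R _ _
        exact pow_nonneg hq0 _
    have h2 : ∑ R ∈ goodSet L S, q0 ^ R.card
        = q0 ^ S.card * ∑ R ∈ goodSet L S, q0 ^ (R.card - S.card) := by
      rw [Finset.mul_sum]
      apply Finset.sum_congr rfl
      intro R hR
      have hle := Finset.card_le_card ((mem_goodSet L S R).mp hR).1
      rw [← pow_add]
      congr 1
      omega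
    have h3 := good_sum_le D q0 y hq0 hy0 hy1 hxy L hdeg S
    have h4 : meetCount L S ≤ D * S.card := by
      unfold meetCount
      have hsub : L.filter (fun T => ¬ Disjoint T S)
          ⊆ S.biUnion (fun a => L.filter (fun T => a ∈ T)) := by
        intro T hT
        obtain ⟨hTL, hTd⟩ := Finset.mem_filter.mp hT
        rw [Finset.not_disjoint_iff] at hTd
        obtain ⟨a, haT, haS⟩ := hTd
        rw [Finset.mem_biUnion]
        exact ⟨a, haS, Finset.mem_filter.mpr ⟨hTL, haT⟩⟩
      have h5 := Finset.card_le_card hsub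
      have h6 : (S.biUnion (fun a => L.filter (fun T => a ∈ T))).card ≤ S.card * D :=
        Finset.card_biUnion_le_card_mul _ _ _ (fun a _ => hdeg a)
      have h7 : S.card * D = D * S.card := mul_comm _ _
      omega
    have h1y : (1 : ℝ) ≤ 1 + y := by linarith
    have h5 : (1 + y) ^ meetCount L S ≤ ((1 + y) ^ D) ^ S.card := by
      rw [← pow_mul]
      exact pow_le_pow_right₀ h1y h4
    have h6 : q0 ^ S.card * ((1 + y) ^ D) ^ S.card ≤ y ^ S.card := by
      rw [← mul_pow]
      exact pow_le_pow_left₀ (by positivity) hxy _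
    have h7 : y ^ S.card ≤ p ^ S.card := pow_le_pow_left₀ hy0 hyp _
    have h8 : (0 : ℝ) ≤ p ^ S.card := pow_nonneg hp0 _
    have h9 : (0 : ℝ) ≤ q0 ^ S.card := pow_nonneg hq0 _
    calc ∑ R ∈ 𝓡.filter (fun R => S ⊆ R), q0 ^ R.card
        ≤ q0 ^ S.card * ∑ R ∈ goodSet L S, q0 ^ (R.card - S.card) := h1.trans_eq h2
      _ ≤ q0 ^ S.card * (1 + y) ^ meetCount L S := mul_le_mul_of_nonneg_left h3 h9
      _ ≤ q0 ^ S.card * ((1 + y) ^ D) ^ S.card := mul_le_mul_of_nonneg_left h5 h9
      _ ≤ y ^ S.card := h6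
      _ ≤ p ^ S.card := h7
      _ ≤ 2 * p ^ S.card := by linarith
  obtain ⟨G, hG1, hG2⟩ := abstract_rounding F p hp0 g hg0 hcov hcost 𝓡 q0 hq0
    (fun R hR => ((h𝓡 R).mp hR).1)
    (fun S hgS hSne => (h𝓡 S).mpr (hconn S hgS hSne))
    (fun R hR R' hR' hnd => (h𝓡 _).mpr (lconn_union ((h𝓡 R).mp hR) ((h𝓡 R').mp hR') hnd))
    hgrowth
  refine ⟨G, hG1, ?_⟩
  have e : q0 / 700 = p / (2100 * D) := by
    rw [hq0def]
    field_simp
    ring
  rw [← e]
  exact hG2

end Vale.Agent.Lib.Helper7.ConnectedCover
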