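import Vale.Agent.Lib.Helper7.P064M

namespace Vale.Agent.Lib.Helper7.P064M

open Finset

/-- The automorphism group of a finite graph is a nonempty finite type. -/
theorem aut_card_pos {W : Type*} [Fintype W] (F : SimpleGraph W) :
    0 < Nat.card (F ≃g F) := by
  have hfin : Finite (F ≃g F) :=
    Finite.of_injective (fun φ : F ≃g F => (⇑φ : W → W)) DFunLike.coe_injective
  exact Nat.card_pos_iff.mpr ⟨⟨SimpleGraph.Iso.refl⟩, hfin⟩

/-- An inequality between numbers of labelled copies of `F` (injective homomorphisms) with a real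
factor gives the same inequality between numbers of copies (subgraphs isomorphic to `F`), since
both sides are multiplied by the number of automorphisms of `F`. -/
theorem copies_of_labelled {V W : Type*} [Fintype V] [Fintype W] (H G : SimpleGraph V)
    (F : SimpleGraph W) (x : ℝ)
    (h : (H.labelledCopyCount F : ℝ) ≤ (G.labelledCopyCount F : ℝ) * x) :
    (H.copyCount F : ℝ) ≤ (G.copyCount F : ℝ) * x := by
  rw [labelled_eq_copyCount_mul_aut, labelled_eq_copyCount_mul_aut] at h
  push_cast at h
  have hA : (0 : ℝ) < (Nat.card (F ≃g F) : ℝ) := by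
    exact_mod_cast aut_card_pos F
  have h' : (H.copyCount F : ℝ) * (Nat.card (F ≃g F) : ℝ)
      ≤ ((G.copyCount F : ℝ) * x) * (Nat.card (F ≃g F) : ℝ) := by
    calc _ ≤ _ := h
      _ = _ := by ring
  exact le_of_mul_le_mul_right h' hA

end Vale.Agent.Lib.Helper7.P064M
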