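import Vale.Agent.Lib.P064S.Main
import Vale.Agent.Lib.P064T.Defs
import Vale.Agent.Lib.P064T.Arith
import Vale.Agent.Lib.Helper7.P064G

/-!
Assembly of the counting inequality for star forests (P064).

The input `hfc` of `forest_labelled_of` is the conclusion of the counting lemma for labelled copies
of a star forest (centres `C`, numbers of leaves `k`).
-/

namespace Vale.Agent.Lib.Helper7.P064M

open Finset
open Vale.Agent.Lib.P064T (IsStarForest)

theorem exp_two_mul_le : Real.exp 2 * 120 ≤ 1000 := by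
  have h2 : Real.exp 2 = Real.exp 1 * Real.exp 1 := by
    rw [← Real.exp_add]
    norm_num
  have h1 := Real.exp_one_lt_d9
  have h0 := Real.exp_pos 1
  rw [h2]
  nlinarith

/-- Labelled form of the counting inequality for a graph `F` on `Fin n` whose labelled copies are
bounded through centres `C` with `k c` leaves (the input `hfc`). -/
theorem forest_labelled_of {n : ℕ} (F H : SimpleGraph (Fin n))
    (hfc : ∃ (C : Finset (Fin n)) (k : Fin n → ℕ), (∀ c ∈ C, 1 ≤ k c) ∧
      ∑ c ∈ C, k c = F.edgeSet.ncard ∧ ∑ c ∈ C, (k c + 1) ≤ n ∧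
      H.labelledCopyCount F ≤
        (∏ c ∈ C, ∑ v : Fin n, ((H.neighborSet v).ncard).descFactorial (k c)) *
          (n - ∑ c ∈ C, (k c + 1)).factorial)
    (q : ℝ) (hq0 : 0 ≤ q)
    (hyp : ∀ F' : SimpleGraph (Fin n), F' ≤ H →
      1 ≤ ((⊤ : SimpleGraph (Fin n)).copyCount F' : ℝ) * q ^ F'.edgeSet.ncard) :
    (H.labelledCopyCount F : ℝ) ≤
      ((⊤ : SimpleGraph (Fin n)).labelledCopyCount F : ℝ)
        * (min 1 (1000 * q)) ^ F.edgeSet.ncard := by
  have hle := labelled_le_desc H F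
  rw [labelled_top, Fintype.card_fin, Nat.descFactorial_self]
  rw [Fintype.card_fin, Nat.descFactorial_self] at hle
  have hle' : (H.labelledCopyCount F : ℝ) ≤ (n.factorial : ℝ) := by
    exact_mod_cast hle
  by_cases h1 : 1 ≤ 1000 * q
  · rw [min_eq_left h1, one_pow, mul_one]
    exact hle'
  · rw [min_eq_right (le_of_not_ge h1)]
    have hq1 : q ≤ 1 := by linarith [not_le.mp h1]
    obtain ⟨C, k, hk, hsum, hv, hcount⟩ := hfc
    have hc' : (H.labelledCopyCount F : ℝ) ≤
        (∏ c ∈ C, ∑ v : Fin n, (((H.neighborSet v).ncard).descFactorial (k c) : ℝ))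
          * ((n - ∑ c ∈ C, (k c + 1)).factorial : ℝ) := by
      exact_mod_cast hcount
    have h2 : ∏ c ∈ C, ∑ v : Fin n, (((H.neighborSet v).ncard).descFactorial (k c) : ℝ)
        ≤ ∏ c ∈ C, ((n.descFactorial (k c + 1) : ℝ) * (120 * q) ^ k c) := by
      refine Finset.prod_le_prod
        (fun c _ => Finset.sum_nonneg (fun v _ => Nat.cast_nonneg _)) (fun c hc => ?_)
      exact Vale.Agent.Lib.P064S.sum_desc_le H q hq0 hq1 hyp (k c) (hk c hc)
    have h3 := Vale.Agent.Lib.P064T.forest_arith n C k hk hv (120 * q) (by positivity)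
    rw [hsum] at h3
    have he := exp_two_mul_le
    calc (H.labelledCopyCount F : ℝ)
        ≤ (∏ c ∈ C, ∑ v : Fin n, (((H.neighborSet v).ncard).descFactorial (k c) : ℝ))
          * ((n - ∑ c ∈ C, (k c + 1)).factorial : ℝ) := hc'
      _ ≤ (∏ c ∈ C, ((n.descFactorial (k c + 1) : ℝ) * (120 * q) ^ k c))
          * ((n - ∑ c ∈ C, (k c + 1)).factorial : ℝ) :=
          mul_le_mul_of_nonneg_right h2 (Nat.cast_nonneg _)
      _ ≤ (n.factorial : ℝ) * (Real.exp 2 * (120 * q)) ^ F.edgeSet.ncard := h3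
      _ ≤ (n.factorial : ℝ) * (1000 * q) ^ F.edgeSet.ncard := by
          refine mul_le_mul_of_nonneg_left
            (pow_le_pow_left₀ (by positivity) ?_ _) (Nat.cast_nonneg _)
          calc Real.exp 2 * (120 * q) = (Real.exp 2 * 120) * q := by ring
            _ ≤ 1000 * q := mul_le_mul_of_nonneg_right he hq0

/-- The same for ordinary copies. -/
theorem forest_copies_of {n : ℕ} (F H : SimpleGraph (Fin n))
    (hfc : ∃ (C : Finset (Fin n)) (k : Fin n → ℕ), (∀ c ∈ C, 1 ≤ k c) ∧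
      ∑ c ∈ C, k c = F.edgeSet.ncard ∧ ∑ c ∈ C, (k c + 1) ≤ n ∧
      H.labelledCopyCount F ≤
        (∏ c ∈ C, ∑ v : Fin n, ((H.neighborSet v).ncard).descFactorial (k c)) *
          (n - ∑ c ∈ C, (k c + 1)).factorial)
    (q : ℝ) (hq0 : 0 ≤ q)
    (hyp : ∀ F' : SimpleGraph (Fin n), F' ≤ H →
      1 ≤ ((⊤ : SimpleGraph (Fin n)).copyCount F' : ℝ) * q ^ F'.edgeSet.ncard) :
    (H.copyCount F : ℝ) ≤
      ((⊤ : SimpleGraph (Fin n)).copyCount F : ℝ) * (min 1 (1000 * q)) ^ F.edgeSet.ncard :=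
  copies_of_labelled H ⊤ F _ (forest_labelled_of F H hfc q hq0 hyp)

/-- From the half-hypothesis at `q` to the unit hypothesis at `min 1 (2 * q)`. -/
theorem hyp_double {n : ℕ} (H : SimpleGraph (Fin n)) (q : ℝ) (hq0 : 0 ≤ q)
    (hyp : ∀ F : SimpleGraph (Fin n), F ≤ H →
      1 / 2 ≤ ((⊤ : SimpleGraph (Fin n)).copyCount F : ℝ) * q ^ F.edgeSet.ncard) :
    ∀ F' : SimpleGraph (Fin n), F' ≤ H →
      1 ≤ ((⊤ : SimpleGraph (Fin n)).copyCount F' : ℝ)
        * (min 1 (2 * q)) ^ F'.edgeSet.ncard := by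
  intro F' hF'
  have hpos : (1 : ℝ) ≤ ((⊤ : SimpleGraph (Fin n)).copyCount F' : ℝ) := by
    have hp : 0 < (⊤ : SimpleGraph (Fin n)).copyCount F' :=
      SimpleGraph.copyCount_pos.mpr ⟨SimpleGraph.Copy.ofLE F' ⊤ le_top⟩
    exact_mod_cast hp
  by_cases h2 : 1 ≤ 2 * q
  · rw [min_eq_left h2, one_pow, mul_one]
    exact hpos
  · rw [min_eq_right (le_of_not_ge h2)]
    rcases Nat.eq_zero_or_pos F'.edgeSet.ncard with h0 | h0
    · rw [h0, pow_zero, mul_one]
      exact hpos
    · have hh := hyp F' hF'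
      have h2e : (2 : ℝ) ≤ 2 ^ F'.edgeSet.ncard := by
        calc (2 : ℝ) = 2 ^ 1 := by norm_num
          _ ≤ 2 ^ F'.edgeSet.ncard := pow_le_pow_right₀ (by norm_num) h0
      have h3 : (2 : ℝ) * q ^ F'.edgeSet.ncard ≤ (2 * q) ^ F'.edgeSet.ncard := by
        rw [mul_pow]
        exact mul_le_mul_of_nonneg_right h2e (pow_nonneg hq0 _)
      have hN : (0 : ℝ) ≤ ((⊤ : SimpleGraph (Fin n)).copyCount F' : ℝ) := Nat.cast_nonneg _
      have h4 := mul_le_mul_of_nonneg_left h3 hN
      linarith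

theorem min_double_le (q : ℝ) :
    min 1 (1000 * min 1 (2 * q)) ≤ min 1 (2000 * q) := by
  refine le_min (min_le_left _ _) ?_
  by_cases h2 : 1 ≤ 2 * q
  · exact le_trans (min_le_left _ _) (by linarith)
  · rw [min_eq_right (le_of_not_ge h2)]
    exact le_trans (min_le_right _ _) (by linarith)

/-- Star forest hosts: a density admissible for the expectation threshold gives, after
multiplication by `2000`, a density for which every subgraph `F` of `H` has at least as many
expected copies as `H` has copies of `F`. The input `hfc` is the counting lemma for the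
subgraphs of `H`. -/
theorem forest_host_of {n : ℕ} (H : SimpleGraph (Fin n))
    (hfc : ∀ F : SimpleGraph (Fin n), F ≤ H →
      ∃ (C : Finset (Fin n)) (k : Fin n → ℕ), (∀ c ∈ C, 1 ≤ k c) ∧
      ∑ c ∈ C, k c = F.edgeSet.ncard ∧ ∑ c ∈ C, (k c + 1) ≤ n ∧
      H.labelledCopyCount F ≤
        (∏ c ∈ C, ∑ v : Fin n, ((H.neighborSet v).ncard).descFactorial (k c)) *
          (n - ∑ c ∈ C, (k c + 1)).factorial)
    (q : ℝ) (hq0 : 0 ≤ q)
    (hyp : ∀ F : SimpleGraph (Fin n), F ≤ H →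
      1 / 2 ≤ ((⊤ : SimpleGraph (Fin n)).copyCount F : ℝ) * q ^ F.edgeSet.ncard) :
    ∀ F : SimpleGraph (Fin n), F ≤ H →
      (H.copyCount F : ℝ) ≤
        ((⊤ : SimpleGraph (Fin n)).copyCount F : ℝ) * (min 1 (2000 * q)) ^ F.edgeSet.ncard := by
  intro F hFH
  have hq'0 : 0 ≤ min 1 (2 * q) := le_min zero_le_one (by positivity)
  have h1 := forest_copies_of F H (hfc F hFH) (min 1 (2 * q)) hq'0 (hyp_double H q hq0 hyp)
  exact le_trans h1 (mul_le_mul_of_nonneg_left
    (pow_le_pow_left₀ (le_min zero_le_one (by positivity)) (min_double_le q) _)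
    (Nat.cast_nonneg _))

end Vale.Agent.Lib.Helper7.P064M
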