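import Vale.Agent.Results.P034.NestedIntersections
import Vale.Agent.Lib.Helper7.P064T6
import Vale.Agent.Lib.P064T.ForestCount

namespace Vale.Agent.Lib.Helper7.P034G

open Finset
open Vale.Agent.Lib.P064T (IsStarForest)
open Vale.Agent.Lib.Helper7.P064M

/-- The pull-back of the edge set `S` under the permutation `σ0`. -/
def pull {n : ℕ} (S : Finset (Sym2 (Fin n))) (σ0 : Equiv.Perm (Fin n)) : SimpleGraph (Fin n) where
  Adj a b := s(σ0 a, σ0 b) ∈ S ∧ a ≠ b
  symm := ⟨fun a b h => ⟨by rw [Sym2.eq_swap]; exact h.1, h.2.symm⟩⟩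
  loopless := ⟨fun _ h => h.2 rfl⟩

theorem map_perm_adj {n : ℕ} (H : SimpleGraph (Fin n)) (σ : Equiv.Perm (Fin n)) (u v : Fin n) :
    (H.map σ.toEmbedding).Adj u v ↔ H.Adj (σ.symm u) (σ.symm v) := by
  rw [SimpleGraph.map_adj]
  constructor
  · rintro ⟨a, b, h, rfl, rfl⟩
    simpa using h
  · intro h
    exact ⟨σ.symm u, σ.symm v, h, by simp, by simp⟩

theorem pull_le {n : ℕ} (H : SimpleGraph (Fin n)) (S : Finset (Sym2 (Fin n)))
    (σ0 : Equiv.Perm (Fin n))
    (h0 : (S : Set (Sym2 (Fin n))) ⊆ (H.map σ0.toEmbedding).edgeSet) : pull S σ0 ≤ H := by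
  intro a b hab
  have h1 : s(σ0 a, σ0 b) ∈ (H.map σ0.toEmbedding).edgeSet := h0 (Finset.mem_coe.mpr hab.1)
  rw [SimpleGraph.mem_edgeSet, map_perm_adj] at h1
  simpa using h1

theorem pull_ncard {n : ℕ} (H : SimpleGraph (Fin n)) (S : Finset (Sym2 (Fin n)))
    (σ0 : Equiv.Perm (Fin n))
    (h0 : (S : Set (Sym2 (Fin n))) ⊆ (H.map σ0.toEmbedding).edgeSet) :
    (pull S σ0).edgeSet.ncard = S.card := by
  have himg : (S : Set (Sym2 (Fin n))) = Sym2.map σ0 '' (pull S σ0).edgeSet := by
    ext e
    constructor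
    · intro he
      induction e using Sym2.ind with
      | _ u v =>
        have h1 : s(u, v) ∈ (H.map σ0.toEmbedding).edgeSet := h0 he
        rw [SimpleGraph.mem_edgeSet] at h1
        have hne : u ≠ v := h1.ne
        refine ⟨s(σ0.symm u, σ0.symm v), ?_, by simp⟩
        rw [SimpleGraph.mem_edgeSet]
        refine ⟨by simpa using he, fun h => hne (σ0.symm.injective h)⟩
    · rintro ⟨e', he', rfl⟩
      induction e' using Sym2.ind with
      | _ a b =>
        rw [SimpleGraph.mem_edgeSet] at he'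
        simpa using he'.1
  have h1 := Set.ncard_image_of_injective (pull S σ0).edgeSet
    (Sym2.map.injective σ0.injective)
  rw [← himg, Set.ncard_coe_finset] at h1
  exact h1.symm

open scoped Classical in
theorem perm_count_le {n : ℕ} (H : SimpleGraph (Fin n)) (hH : IsStarForest H) (q : ℝ) (hq0 : 0 ≤ q)
    (hyp : ∀ F : SimpleGraph (Fin n), F ≤ H →
      1 / 2 ≤ ((⊤ : SimpleGraph (Fin n)).copyCount F : ℝ) * q ^ F.edgeSet.ncard)
    (S : Finset (Sym2 (Fin n))) :
    (((Finset.univ : Finset (Equiv.Perm (Fin n))).filter (fun σ =>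
        (S : Set (Sym2 (Fin n))) ⊆ (H.map σ.toEmbedding).edgeSet)).card : ℝ)
      ≤ (n.factorial : ℝ) * (2000 * q) ^ S.card := by
  by_cases hne : ∃ σ0 : Equiv.Perm (Fin n),
      (S : Set (Sym2 (Fin n))) ⊆ (H.map σ0.toEmbedding).edgeSet
  · obtain ⟨σ0, h0⟩ := hne
    have hle : pull S σ0 ≤ H := pull_le H S σ0 h0
    have hcard : (pull S σ0).edgeSet.ncard = S.card := pull_ncard H S σ0 h0
    -- injection into labelled copies
    have hinj : ((Finset.univ : Finset (Equiv.Perm (Fin n))).filter (fun σ =>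
        (S : Set (Sym2 (Fin n))) ⊆ (H.map σ.toEmbedding).edgeSet)).card
        ≤ H.labelledCopyCount (pull S σ0) := by
      rw [labelled_eq_natCard, ← Fintype.card_subtype, ← Nat.card_eq_fintype_card]
      have hfin : Finite (SimpleGraph.Copy (pull S σ0) H) :=
        Finite.of_injective (fun f : SimpleGraph.Copy (pull S σ0) H => (⇑f : Fin n → Fin n))
          DFunLike.coe_injective
      refine Nat.card_le_card_of_injective
        (fun σ : {σ : Equiv.Perm (Fin n) //
            (S : Set (Sym2 (Fin n))) ⊆ (H.map σ.toEmbedding).edgeSet} =>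
          (⟨⟨fun a => σ.1.symm (σ0 a), fun {a b} hab => by
              have h1 : s(σ0 a, σ0 b) ∈ (H.map σ.1.toEmbedding).edgeSet :=
                σ.2 (Finset.mem_coe.mpr hab.1)
              rw [SimpleGraph.mem_edgeSet, map_perm_adj] at h1
              exact h1⟩,
            fun a b hab => σ0.injective (σ.1.symm.injective hab)⟩ :
            SimpleGraph.Copy (pull S σ0) H)) ?_
      intro σ τ hστ
      apply Subtype.ext
      have h2 : ∀ a, σ.1.symm (σ0 a) = τ.1.symm (σ0 a) := by
        intro a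
        have := congrArg (fun c : SimpleGraph.Copy (pull S σ0) H => c a) hστ
        exact this
      have h3 : σ.1.symm = τ.1.symm := by
        ext x
        have := h2 (σ0.symm x)
        simpa using congrArg Fin.val this
      have h4 := congrArg Equiv.symm h3
      simpa using h4
    have hlab := forest_labelled_of (pull S σ0) H
      (Vale.Agent.Lib.P064T.forest_count (pull S σ0) H (hH.mono hle)) (min 1 (2 * q))
      (le_min zero_le_one (by positivity)) (hyp_double H q hq0 hyp)
    rw [labelled_top, Fintype.card_fin, Nat.descFactorial_self, hcard] at hlab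
    have hmin : min 1 (1000 * min 1 (2 * q)) ≤ 2000 * q :=
      le_trans (min_double_le q) (min_le_right _ _)
    have hmin0 : 0 ≤ min 1 (1000 * min 1 (2 * q)) :=
      le_min zero_le_one (mul_nonneg (by norm_num) (le_min zero_le_one (by positivity)))
    calc (((Finset.univ : Finset (Equiv.Perm (Fin n))).filter (fun σ =>
          (S : Set (Sym2 (Fin n))) ⊆ (H.map σ.toEmbedding).edgeSet)).card : ℝ)
        ≤ (H.labelledCopyCount (pull S σ0) : ℝ) := by exact_mod_cast hinj
      _ ≤ (n.factorial : ℝ) * (min 1 (1000 * min 1 (2 * q))) ^ S.card := hlab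
      _ ≤ (n.factorial : ℝ) * (2000 * q) ^ S.card :=
          mul_le_mul_of_nonneg_left (pow_le_pow_left₀ hmin0 hmin _) (Nat.cast_nonneg _)
  · have hempty : (Finset.univ : Finset (Equiv.Perm (Fin n))).filter (fun σ =>
        (S : Set (Sym2 (Fin n))) ⊆ (H.map σ.toEmbedding).edgeSet) = ∅ := by
      rw [Finset.filter_eq_empty_iff]
      intro σ _ hσ
      exact hne ⟨σ, hσ⟩
    rw [hempty, Finset.card_empty, Nat.cast_zero]
    positivity

end Vale.Agent.Lib.Helper7.P034G
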