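import Mathlib

namespace Vale.Agent.Lib.Helper7.P064M

/-- The perfect matching on `2k` vertices: the `k` pairwise disjoint edges
`{(i, false), (i, true)}`, `i : Fin k`. -/
def matchingGraph (k : ℕ) : SimpleGraph (Fin k × Bool) where
  Adj a b := a.1 = b.1 ∧ a.2 ≠ b.2
  symm := ⟨fun _ _ h => ⟨h.1.symm, h.2.symm⟩⟩
  loopless := ⟨fun _ h => h.2 rfl⟩

end Vale.Agent.Lib.Helper7.P064M
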