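import Mathlib

namespace Vale.Agent.Lib.Helper7.P064M

/-- The star forest whose components are stars with `k j` leaves, `j : Fin t`: the vertices are
the pairs `⟨j, none⟩` (the centre of the `j`-th star) and `⟨j, some i⟩` (its leaves, `i : Fin (k j)`),
and two vertices are adjacent iff they lie in the same component and exactly one of them is the
centre. -/
def starForest {t : ℕ} (k : Fin t → ℕ) : SimpleGraph (Σ j : Fin t, Option (Fin (k j))) where
  Adj x y := x.1 = y.1 ∧ x.2.isSome ≠ y.2.isSome
  symm := ⟨fun _ _ h => ⟨h.1.symm, h.2.symm⟩⟩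
  loopless := ⟨fun _ h => h.2 rfl⟩

end Vale.Agent.Lib.Helper7.P064M
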