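import Vale.Agent.Lib.Helper7.P064G
import Vale.Agent.Lib.Helper7.P064FDef

namespace Vale.Agent.Lib.Helper7.P064M

open Finset

theorem finite_copy {V W : Type*} [Finite V] [Finite W] (F : SimpleGraph W) (G : SimpleGraph V) :
    Finite (SimpleGraph.Copy F G) :=
  Finite.of_injective (fun f : SimpleGraph.Copy F G => (⇑f : W → V)) DFunLike.coe_injective

/-- Labelled copies of a graph on a sigma type restrict to labelled copies of each component. -/
theorem labelled_sigma_le {V : Type*} [Fintype V] {t : ℕ} {W : Fin t → Type*}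
    [∀ j, Fintype (W j)] (H : SimpleGraph V) (S : SimpleGraph (Σ j, W j))
    (Fj : ∀ j, SimpleGraph (W j)) (hom : ∀ j a b, (Fj j).Adj a b → S.Adj ⟨j, a⟩ ⟨j, b⟩) :
    H.labelledCopyCount S ≤ ∏ j, H.labelledCopyCount (Fj j) := by
  classical
  have h1 : ∏ j, H.labelledCopyCount (Fj j)
      = Nat.card (∀ j, SimpleGraph.Copy (Fj j) H) := by
    rw [Nat.card_pi]
    exact Finset.prod_congr rfl (fun j _ => labelled_eq_natCard H (Fj j))
  rw [h1, labelled_eq_natCard]
  have hfin : ∀ j, Finite (SimpleGraph.Copy (Fj j) H) := fun j => finite_copy (Fj j) H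
  refine Nat.card_le_card_of_injective
    (fun (f : SimpleGraph.Copy S H) (j : Fin t) =>
      f.comp (⟨⟨Sigma.mk j, fun {a b} hab => hom j a b hab⟩, sigma_mk_injective⟩ :
        SimpleGraph.Copy (Fj j) S)) ?_
  intro f g hfg
  ext ⟨j, a⟩
  have h2 := congrFun hfg j
  have h3 := congrArg (fun c : SimpleGraph.Copy (Fj j) H => c a) h2
  simpa using h3

theorem card_starForest_verts {t : ℕ} (k : Fin t → ℕ) :
    Fintype.card (Σ j : Fin t, Option (Fin (k j))) = ∑ j, (k j + 1) := by
  simp [Fintype.card_sigma]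

/-- Assembly: a labelled star inequality for every component gives the labelled star forest
inequality, with the constant multiplied by `8`. -/
theorem starForest_labelled_of (n t : ℕ) (k : Fin t → ℕ) (hk : ∀ j, 1 ≤ k j)
    (H : SimpleGraph (Fin n)) (q L : ℝ) (hq0 : 0 ≤ q) (hL : 0 ≤ L)
    (S : ∀ j : Fin t, SimpleGraph (Option (Fin (k j))))
    (hom : ∀ j a b, (S j).Adj a b → (starForest k).Adj ⟨j, a⟩ ⟨j, b⟩)
    (hstar : 8 * L * q < 1 → ∀ j, (H.labelledCopyCount (S j) : ℝ)
        ≤ (n.descFactorial (k j + 1) : ℝ) * (L * q) ^ (k j)) :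
    (H.labelledCopyCount (starForest k) : ℝ) ≤
      ((⊤ : SimpleGraph (Fin n)).labelledCopyCount (starForest k) : ℝ)
        * (min 1 (8 * L * q)) ^ (∑ j, k j) := by
  have hle := labelled_le_desc H (starForest k)
  rw [labelled_top, card_starForest_verts, Fintype.card_fin]
  rw [card_starForest_verts, Fintype.card_fin] at hle
  have hle' : (H.labelledCopyCount (starForest k) : ℝ)
      ≤ (n.descFactorial (∑ j, (k j + 1)) : ℝ) := by
    exact_mod_cast hle
  by_cases h8 : 1 ≤ 8 * L * q
  · rw [min_eq_left h8, one_pow, mul_one]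
    exact hle'
  · rw [min_eq_right (le_of_not_ge h8)]
    by_cases hvn : ∑ j, (k j + 1) ≤ n
    · have hs := hstar (not_le.mp h8)
      have hLq : 0 ≤ L * q := mul_nonneg hL hq0
      have h1 : (H.labelledCopyCount (starForest k) : ℝ)
          ≤ ∏ j, (H.labelledCopyCount (S j) : ℝ) := by
        exact_mod_cast labelled_sigma_le H (starForest k) S hom
      have h2 : ∏ j, (H.labelledCopyCount (S j) : ℝ)
          ≤ ∏ j, ((n : ℝ) ^ (k j + 1) * (L * q) ^ (k j)) := by
        refine Finset.prod_le_prod (fun j _ => Nat.cast_nonneg _) (fun j _ => ?_)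
        refine le_trans (hs j) ?_
        refine mul_le_mul_of_nonneg_right ?_ (pow_nonneg hLq _)
        exact_mod_cast Nat.descFactorial_le_pow n (k j + 1)
      have h3 : ∏ j, ((n : ℝ) ^ (k j + 1) * (L * q) ^ (k j))
          = (n : ℝ) ^ (∑ j, (k j + 1)) * (L * q) ^ (∑ j, k j) := by
        rw [Finset.prod_mul_distrib, Finset.prod_pow_eq_pow_sum, Finset.prod_pow_eq_pow_sum]
      have h4 : (n : ℝ) ^ (∑ j, (k j + 1))
          ≤ Real.exp 1 ^ (∑ j, (k j + 1)) * (n.descFactorial (∑ j, (k j + 1)) : ℝ) :=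
        pow_le_exp_desc n _ hvn
      have hve : ∑ j, (k j + 1) ≤ 2 * ∑ j, k j := by
        have e1 : ∑ j, (k j + 1) = ∑ j, k j + t := by
          rw [Finset.sum_add_distrib]
          simp
        have ht : t ≤ ∑ j, k j := by
          calc t = ∑ _j : Fin t, 1 := by simp
            _ ≤ ∑ j, k j := Finset.sum_le_sum (fun j _ => hk j)
        omega
      have he1 : (1 : ℝ) ≤ Real.exp 1 := Real.one_le_exp (by norm_num)
      have h5 : Real.exp 1 ^ (∑ j, (k j + 1)) ≤ Real.exp 1 ^ (2 * ∑ j, k j) :=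
        pow_le_pow_right₀ he1 hve
      have h6 : Real.exp 1 ^ 2 ≤ 8 := by
        calc Real.exp 1 ^ 2 ≤ (2.7182818286 : ℝ) ^ 2 :=
              pow_le_pow_left₀ (Real.exp_pos 1).le Real.exp_one_lt_d9.le 2
          _ ≤ 8 := by norm_num
      have hd : (0 : ℝ) ≤ n.descFactorial (∑ j, (k j + 1)) := Nat.cast_nonneg _
      calc (H.labelledCopyCount (starForest k) : ℝ)
          ≤ (n : ℝ) ^ (∑ j, (k j + 1)) * (L * q) ^ (∑ j, k j) := by
            rw [← h3]
            exact le_trans h1 h2
        _ ≤ (Real.exp 1 ^ (2 * ∑ j, k j) * (n.descFactorial (∑ j, (k j + 1)) : ℝ))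
              * (L * q) ^ (∑ j, k j) := by
            refine mul_le_mul_of_nonneg_right (le_trans h4 ?_) (pow_nonneg hLq _)
            exact mul_le_mul_of_nonneg_right h5 hd
        _ = (n.descFactorial (∑ j, (k j + 1)) : ℝ)
              * (Real.exp 1 ^ 2 * (L * q)) ^ (∑ j, k j) := by
            rw [pow_mul]
            ring
        _ ≤ (n.descFactorial (∑ j, (k j + 1)) : ℝ) * (8 * L * q) ^ (∑ j, k j) := by
            refine mul_le_mul_of_nonneg_left (pow_le_pow_left₀ (by positivity) ?_ _) hd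
            calc Real.exp 1 ^ 2 * (L * q) ≤ 8 * (L * q) :=
                  mul_le_mul_of_nonneg_right h6 hLq
              _ = 8 * L * q := by ring
    · have h0 : n.descFactorial (∑ j, (k j + 1)) = 0 :=
        Nat.descFactorial_eq_zero_iff_lt.mpr (not_le.mp hvn)
      rw [h0] at hle' ⊢
      simpa using hle'

end Vale.Agent.Lib.Helper7.P064M
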