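import Vale.Agent.Lib.Helper7.P064Thr2
import Vale.Agent.Lib.P064B.Host

/-!
P064, every graph `H`: the unit hypothesis bounds the maximum degree, and with the bounded
degree comparison this gives a comparison of the two expectation thresholds for every `H`.
-/

namespace Vale.Agent.Lib.Helper7.P064M

open Finset

theorem exp_two_mul_120 : Real.exp 1 * Real.exp 1 * 120 ≤ 887 := by
  have h1 := Real.exp_one_lt_d9
  have h0 := Real.exp_pos 1
  nlinarith

/-- Under the unit hypothesis at density `q ≤ 1` every degree of `H` is at most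
`max (log n) (887 * n * q)`. -/
theorem degree_le_of_hyp {n : ℕ} (H : SimpleGraph (Fin n)) (q : ℝ) (hq0 : 0 ≤ q) (hq1 : q ≤ 1)
    (hyp : ∀ F : SimpleGraph (Fin n), F ≤ H →
      1 ≤ ((⊤ : SimpleGraph (Fin n)).copyCount F : ℝ) * q ^ F.edgeSet.ncard)
    (v : Fin n) :
    ((H.neighborSet v).ncard : ℝ) ≤ max (Real.log n) (887 * n * q) := by
  by_contra hcon
  rw [not_le, max_lt_iff] at hcon
  obtain ⟨hlog, hbig⟩ := hcon
  set d := (H.neighborSet v).ncard with hd
  have hn0 : (0 : ℝ) < (n : ℝ) := by exact_mod_cast Fin.pos v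
  have hnq : (0 : ℝ) ≤ (n : ℝ) * q := by positivity
  have hdpos : (0 : ℝ) < (d : ℝ) := lt_of_le_of_lt (by positivity) hbig
  have hd1 : 1 ≤ d := by exact_mod_cast Nat.pos_of_ne_zero (fun h => by simp [h] at hdpos)
  -- the star sum
  have hsum := Vale.Agent.Lib.P064S.sum_desc_le H q hq0 hq1 hyp d hd1
  have hterm : ((d.descFactorial d : ℕ) : ℝ)
      ≤ ∑ u : Fin n, (((H.neighborSet u).ncard).descFactorial d : ℝ) :=
    Finset.single_le_sum (f := fun u : Fin n => (((H.neighborSet u).ncard).descFactorial d : ℝ))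
      (fun u _ => Nat.cast_nonneg _) (Finset.mem_univ v)
  rw [Nat.descFactorial_self] at hterm
  have hdesc : (n.descFactorial (d + 1) : ℝ) ≤ (n : ℝ) ^ (d + 1) := by
    exact_mod_cast Nat.descFactorial_le_pow n (d + 1)
  have hq120 : (0 : ℝ) ≤ (120 * q) ^ d := by positivity
  have hfact : (d.factorial : ℝ) ≤ (n : ℝ) * ((120 * (n * q)) ^ d) := by
    calc (d.factorial : ℝ) ≤ (n.descFactorial (d + 1) : ℝ) * (120 * q) ^ d :=
          le_trans hterm hsum
      _ ≤ (n : ℝ) ^ (d + 1) * (120 * q) ^ d := mul_le_mul_of_nonneg_right hdesc hq120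
      _ = (n : ℝ) * ((120 * (n * q)) ^ d) := by
          rw [pow_succ, mul_pow, mul_pow, mul_pow]
          ring
  -- d^d ≤ e^d d!
  have hstir : (d : ℝ) ^ d ≤ Real.exp 1 ^ d * (d.factorial : ℝ) := by
    have h2 := Real.pow_div_factorial_le_exp (d : ℝ) (Nat.cast_nonneg d) d
    have hf : (0 : ℝ) < d.factorial := by exact_mod_cast d.factorial_pos
    rw [div_le_iff₀ hf] at h2
    have h3 : Real.exp (d : ℝ) = Real.exp 1 ^ d := by
      rw [← Real.exp_nat_mul, mul_one]
    rwa [h3] at h2
  -- n ≤ e^d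
  have hne : (n : ℝ) ≤ Real.exp 1 ^ d := by
    have h3 : Real.exp (d : ℝ) = Real.exp 1 ^ d := by
      rw [← Real.exp_nat_mul, mul_one]
    rw [← h3]
    exact le_of_lt ((Real.log_lt_iff_lt_exp hn0).mp hlog)
  have he0 : (0 : ℝ) < Real.exp 1 := Real.exp_pos 1
  have h120 : (0 : ℝ) ≤ (120 * ((n : ℝ) * q)) ^ d := by positivity
  have hchain : (d : ℝ) ^ d ≤ (887 * (n : ℝ) * q) ^ d := by
    calc (d : ℝ) ^ d ≤ Real.exp 1 ^ d * (d.factorial : ℝ) := hstir
      _ ≤ Real.exp 1 ^ d * ((n : ℝ) * ((120 * (n * q)) ^ d)) :=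
          mul_le_mul_of_nonneg_left hfact (by positivity)
      _ ≤ Real.exp 1 ^ d * (Real.exp 1 ^ d * ((120 * (n * q)) ^ d)) :=
          mul_le_mul_of_nonneg_left (mul_le_mul_of_nonneg_right hne h120) (by positivity)
      _ = (Real.exp 1 * Real.exp 1 * 120 * ((n : ℝ) * q)) ^ d := by
          rw [mul_pow, mul_pow, mul_pow, mul_pow]
          ring
      _ ≤ (887 * (n : ℝ) * q) ^ d := by
          refine pow_le_pow_left₀ (by positivity) ?_ d
          calc Real.exp 1 * Real.exp 1 * 120 * ((n : ℝ) * q)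
              ≤ 887 * ((n : ℝ) * q) := mul_le_mul_of_nonneg_right exp_two_mul_120 hnq
            _ = 887 * (n : ℝ) * q := by ring
  have hlt : (887 * (n : ℝ) * q) ^ d < (d : ℝ) ^ d :=
    pow_lt_pow_left₀ hbig (by positivity) (by omega)
  exact absurd hchain (not_le.mpr hlt)

/-- Every graph: the fractional expectation threshold is at most
`178 * max (log n) (1774 * n * p_E) * p_E`. -/
theorem general_threshold {n : ℕ} (H : SimpleGraph (Fin n)) :
    fracExpThreshold H
      ≤ 178 * max (Real.log n) (1774 * (n : ℝ) * expThreshold H) * expThreshold H := by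
  obtain ⟨hq0, -, hq2⟩ := expThreshold_mem H
  have hdeg : ∀ v : Fin n, ((H.neighborSet v).ncard : ℝ)
      ≤ max (Real.log n) (1774 * (n : ℝ) * expThreshold H) := by
    intro v
    have h := degree_le_of_hyp H (min 1 (2 * expThreshold H))
      (le_min zero_le_one (by positivity)) (min_le_left _ _)
      (hyp_double H (expThreshold H) hq0 hq2) v
    refine le_trans h (max_le_max le_rfl ?_)
    have h1 : min 1 (2 * expThreshold H) ≤ 2 * expThreshold H := min_le_right _ _
    have hn : (0 : ℝ) ≤ 887 * (n : ℝ) := by positivity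
    calc 887 * (n : ℝ) * min 1 (2 * expThreshold H)
        ≤ 887 * (n : ℝ) * (2 * expThreshold H) := mul_le_mul_of_nonneg_left h1 hn
      _ = 1774 * (n : ℝ) * expThreshold H := by ring
  have hM0 : 0 ≤ max (Real.log n) (1774 * (n : ℝ) * expThreshold H) :=
    le_max_of_le_right (by positivity)
  have hD : ∀ v : Fin n, (H.neighborSet v).ncard
      ≤ ⌊max (Real.log n) (1774 * (n : ℝ) * expThreshold H)⌋₊ :=
    fun v => Nat.le_floor (hdeg v)
  have h1 := Vale.Agent.Lib.P064B.bounded_degree_threshold H _ hD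
  have h2 : ((⌊max (Real.log n) (1774 * (n : ℝ) * expThreshold H)⌋₊ : ℕ) : ℝ)
      ≤ max (Real.log n) (1774 * (n : ℝ) * expThreshold H) := Nat.floor_le hM0
  calc fracExpThreshold H
      ≤ 178 * ((⌊max (Real.log n) (1774 * (n : ℝ) * expThreshold H)⌋₊ : ℕ) : ℝ)
          * expThreshold H := h1
    _ ≤ 178 * max (Real.log n) (1774 * (n : ℝ) * expThreshold H) * expThreshold H := by
        refine mul_le_mul_of_nonneg_right ?_ hq0
        exact mul_le_mul_of_nonneg_left h2 (by norm_num)

end Vale.Agent.Lib.Helper7.P064M
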