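import Vale.Agent.Lib.Helper7.P064Thr

/-!
The infimum defining the expectation threshold is attained.
-/

namespace Vale.Agent.Lib.Helper7.P064M

open Finset

theorem isClosed_expSet {n : ℕ} (H : SimpleGraph (Fin n)) :
    IsClosed {p : ℝ | 0 ≤ p ∧ p ≤ 1 ∧
      ∀ F : SimpleGraph (Fin n), F ≤ H → 1 / 2 ≤ expCopies F p} := by
  have h1 : {p : ℝ | 0 ≤ p ∧ p ≤ 1 ∧
      ∀ F : SimpleGraph (Fin n), F ≤ H → 1 / 2 ≤ expCopies F p}
      = Set.Icc 0 1 ∩ ⋂ (F : SimpleGraph (Fin n)), ⋂ (_ : F ≤ H),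
          {p : ℝ | 1 / 2 ≤ expCopies F p} := by
    ext p
    simp only [Set.mem_ofPred_eq, Set.mem_inter_iff, Set.mem_Icc, Set.mem_iInter]
    tauto
  rw [h1]
  refine isClosed_Icc.inter (isClosed_iInter fun F => isClosed_iInter fun _ => ?_)
  refine isClosed_le continuous_const ?_
  unfold expCopies
  fun_prop

/-- The expectation threshold is itself admissible: the infimum is a minimum. -/
theorem expThreshold_mem {n : ℕ} (H : SimpleGraph (Fin n)) :
    expThreshold H ∈ {p : ℝ | 0 ≤ p ∧ p ≤ 1 ∧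
      ∀ F : SimpleGraph (Fin n), F ≤ H → 1 / 2 ≤ expCopies F p} :=
  (isClosed_expSet H).csInf_mem ⟨1, one_mem_exp H⟩ (bddBelow_exp H)

end Vale.Agent.Lib.Helper7.P064M
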